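import Mathlib
import Crest.Prelude.Def_AsymptoticConvexity

/-!
Row 125 (S0166-S0169), abstract core lemmas (helper5).

* `exists_near_of_cesaro` (C1): a sequence whose finite sums grow at most like `C * sqrt (card)` comes
  arbitrarily close to every closed finite-codimensional subspace.
* `exists_pair_near_of_bounded` (C2): a bounded sequence has two different members whose difference is
  arbitrarily close to a given closed finite-codimensional subspace.
* `auc_homogeneous` (C3): homogeneous form of asymptotic uniform convexity of an equivalent norm.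
* `not_auc_of_trees` (C4): a family of bounded trees with separated, Cesaro-null sibling increments
  excludes equivalent AUC norms.
* `not_auc_of_daugavet_like` (C5): the "Daugavet-like" property excludes equivalent AUC norms.
* `not_finiteDimensional_of_cesaro` (C6).
-/

set_option autoImplicit false

namespace Crest.Agent.Helper5.Row125

open Crest.AnalysisR Filter Topology

section Quot

variable {V : Type*} [NormedAddCommGroup V] [NormedSpace ℝ V]

/-- Small quotient norm gives a close point of the subspace. -/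
theorem exists_mem_sub_lt_of_norm_mk_lt (S : Submodule ℝ V) (v : V) (ε : ℝ)
    (h : ‖(Submodule.Quotient.mk v : V ⧸ S)‖ < ε) : ∃ y ∈ S, ‖v - y‖ < ε := by
  obtain ⟨m, hm, hlt⟩ := Submodule.Quotient.norm_mk_lt (Submodule.Quotient.mk v : V ⧸ S)
    (sub_pos.2 h)
  have hmem : m - v ∈ S := (Submodule.Quotient.eq S).1 hm
  refine ⟨v - m, ?_, ?_⟩
  · have := S.neg_mem hmem
    simpa using this
  · have : v - (v - m) = m := by abel
    rw [this]; linarith

/-- (C1) A sequence whose finite sums have norm at most `C * sqrt (card)` comes arbitrarily close to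
every closed subspace of finite codimension. -/
theorem exists_near_of_cesaro (S : Submodule ℝ V) (hS : IsClosed (S : Set V))
    [FiniteDimensional ℝ (V ⧸ S)] (d : ℕ → V) (C : ℝ)
    (hd : ∀ A : Finset ℕ, ‖∑ i ∈ A, d i‖ ≤ C * Real.sqrt A.card)
    {ε : ℝ} (hε : 0 < ε) : ∃ i, ∃ y ∈ S, ‖d i - y‖ < ε := by
  have : IsClosed (S : Set V) := hS
  by_contra hcon
  push Not at hcon
  have hq : ∀ i, ε ≤ ‖(Submodule.Quotient.mk (d i) : V ⧸ S)‖ := by
    intro i
    by_contra hlt
    push Not at hlt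
    obtain ⟨y, hy, hlt'⟩ := exists_mem_sub_lt_of_norm_mk_lt S (d i) ε hlt
    exact absurd hlt' (not_lt.2 (hcon i y hy))
  have hb : ∀ i, ‖(Submodule.Quotient.mk (d i) : V ⧸ S)‖ ≤ C := by
    intro i
    have h1 := hd {i}
    simp only [Finset.sum_singleton, Finset.card_singleton, Nat.cast_one, Real.sqrt_one,
      mul_one] at h1
    exact (Submodule.Quotient.norm_mk_le S (d i)).trans h1
  have : ProperSpace (V ⧸ S) := FiniteDimensional.proper_real _
  obtain ⟨w, -, φ, hφ, hlim⟩ := tendsto_subseq_of_bounded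
    (s := Metric.closedBall (0 : V ⧸ S) C) Metric.isBounded_closedBall
    (x := fun i => (Submodule.Quotient.mk (d i) : V ⧸ S))
    (fun i => by simpa using hb i)
  have hw : ε ≤ ‖w‖ := by
    have hn : Tendsto (fun k => ‖(Submodule.Quotient.mk (d (φ k)) : V ⧸ S)‖) atTop (𝓝 ‖w‖) :=
      (continuous_norm.tendsto w).comp hlim
    exact ge_of_tendsto' hn (fun k => hq (φ k))
  have hwpos : 0 < ‖w‖ := lt_of_lt_of_le hε hw
  obtain ⟨k₀, hk₀⟩ := (Metric.tendsto_atTop.1 hlim) (‖w‖ / 2) (by positivity)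
  -- the contradiction: for every n, n * ‖w‖ / 2 ≤ C * sqrt n
  have key : ∀ n : ℕ, (n : ℝ) * ‖w‖ / 2 ≤ C * Real.sqrt n := by
    intro n
    set A : Finset ℕ := (Finset.range n).image (fun k => φ (k₀ + k)) with hA
    have hinj : Function.Injective (fun k => φ (k₀ + k)) := by
      intro a b hab
      have := hφ.injective hab
      omega
    have hcard : A.card = n := by
      rw [hA, Finset.card_image_of_injective _ hinj, Finset.card_range]
    have hsum : (Submodule.Quotient.mk (∑ i ∈ A, d i) : V ⧸ S)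
        = ∑ k ∈ Finset.range n, (Submodule.Quotient.mk (d (φ (k₀ + k))) : V ⧸ S) := by
      rw [hA, Finset.sum_image (fun a _ b _ hab => hinj hab)]
      exact map_sum (S.mkQ) _ _
    have h1 : ‖(Submodule.Quotient.mk (∑ i ∈ A, d i) : V ⧸ S)‖ ≤ C * Real.sqrt n := by
      have := hd A
      rw [hcard] at this
      exact (Submodule.Quotient.norm_mk_le S _).trans this
    have h2 : ‖(∑ k ∈ Finset.range n, (Submodule.Quotient.mk (d (φ (k₀ + k))) : V ⧸ S))
        - (n : ℝ) • w‖ ≤ n * (‖w‖ / 2) := by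
      have : (∑ k ∈ Finset.range n, (Submodule.Quotient.mk (d (φ (k₀ + k))) : V ⧸ S))
          - (n : ℝ) • w
          = ∑ k ∈ Finset.range n, ((Submodule.Quotient.mk (d (φ (k₀ + k))) : V ⧸ S) - w) := by
        rw [Finset.sum_sub_distrib, Finset.sum_const, Finset.card_range]
        simp [Nat.cast_smul_eq_nsmul]
      rw [this]
      calc ‖∑ k ∈ Finset.range n, ((Submodule.Quotient.mk (d (φ (k₀ + k))) : V ⧸ S) - w)‖
          ≤ ∑ k ∈ Finset.range n, ‖(Submodule.Quotient.mk (d (φ (k₀ + k))) : V ⧸ S) - w‖ :=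
            norm_sum_le _ _
        _ ≤ ∑ _k ∈ Finset.range n, ‖w‖ / 2 := by
            apply Finset.sum_le_sum
            intro k _
            have := hk₀ (k₀ + k) (by omega)
            rw [dist_eq_norm] at this
            exact this.le
        _ = n * (‖w‖ / 2) := by simp
    have h3 : ‖(n : ℝ) • w‖ = n * ‖w‖ := by
      rw [norm_smul, Real.norm_eq_abs, abs_of_nonneg (Nat.cast_nonneg n)]
    have h4 : ‖(n : ℝ) • w‖ ≤ ‖(∑ k ∈ Finset.range n,
        (Submodule.Quotient.mk (d (φ (k₀ + k))) : V ⧸ S))‖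
        + ‖(∑ k ∈ Finset.range n, (Submodule.Quotient.mk (d (φ (k₀ + k))) : V ⧸ S))
        - (n : ℝ) • w‖ := by
      have := norm_sub_le (∑ k ∈ Finset.range n,
        (Submodule.Quotient.mk (d (φ (k₀ + k))) : V ⧸ S))
        ((∑ k ∈ Finset.range n, (Submodule.Quotient.mk (d (φ (k₀ + k))) : V ⧸ S))
        - (n : ℝ) • w)
      simpa using this
    rw [hsum] at h1
    rw [h3] at h4
    linarith
  -- choose n = m^2 with m large
  obtain ⟨m, hm⟩ := exists_nat_gt (2 * C / ‖w‖)
  have hm' : 2 * C < m * ‖w‖ := by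
    rwa [div_lt_iff₀ hwpos] at hm
  have hmpos : (0 : ℝ) < m := by
    by_contra h
    push Not at h
    have hC : 0 ≤ C := le_trans (norm_nonneg _) (hb 0)
    nlinarith
  have := key (m * m)
  rw [Nat.cast_mul, Real.sqrt_mul_self hmpos.le] at this
  nlinarith

/-- (C2) A bounded sequence has two members with different indices whose difference is arbitrarily
close to a given closed subspace of finite codimension. -/
theorem exists_pair_near_of_bounded (S : Submodule ℝ V) (hS : IsClosed (S : Set V))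
    [FiniteDimensional ℝ (V ⧸ S)] (d : ℕ → V) (C : ℝ) (hd : ∀ i, ‖d i‖ ≤ C)
    {ε : ℝ} (hε : 0 < ε) : ∃ i j, i ≠ j ∧ ∃ y ∈ S, ‖(d i - d j) - y‖ < ε := by
  have : IsClosed (S : Set V) := hS
  have hb : ∀ i, ‖(Submodule.Quotient.mk (d i) : V ⧸ S)‖ ≤ C :=
    fun i => (Submodule.Quotient.norm_mk_le S (d i)).trans (hd i)
  have : ProperSpace (V ⧸ S) := FiniteDimensional.proper_real _
  obtain ⟨w, -, φ, hφ, hlim⟩ := tendsto_subseq_of_bounded
    (s := Metric.closedBall (0 : V ⧸ S) C) Metric.isBounded_closedBall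
    (x := fun i => (Submodule.Quotient.mk (d i) : V ⧸ S))
    (fun i => by simpa using hb i)
  obtain ⟨k₀, hk₀⟩ := (Metric.tendsto_atTop.1 hlim) (ε / 2) (by positivity)
  have h1 := hk₀ k₀ le_rfl
  have h2 := hk₀ (k₀ + 1) (by omega)
  have hne : φ k₀ ≠ φ (k₀ + 1) := (hφ (Nat.lt_succ_self k₀)).ne
  refine ⟨φ k₀, φ (k₀ + 1), hne, ?_⟩
  apply exists_mem_sub_lt_of_norm_mk_lt
  have : (Submodule.Quotient.mk (d (φ k₀) - d (φ (k₀ + 1))) : V ⧸ S)
      = Submodule.Quotient.mk (d (φ k₀)) - Submodule.Quotient.mk (d (φ (k₀ + 1))) := rfl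
  rw [this]
  have h3 := dist_triangle_right (Submodule.Quotient.mk (d (φ k₀)) : V ⧸ S)
    (Submodule.Quotient.mk (d (φ (k₀ + 1)))) w
  rw [dist_eq_norm] at h3
  simp only [Function.comp] at h1 h2
  linarith

/-- (C6) A normed space containing a sequence bounded below in norm whose finite sums grow at most
like `C * sqrt (card)` is not finite-dimensional. -/
theorem not_finiteDimensional_of_cesaro (d : ℕ → V) (C δ : ℝ) (hδ : 0 < δ)
    (hlow : ∀ i, δ ≤ ‖d i‖)
    (hd : ∀ A : Finset ℕ, ‖∑ i ∈ A, d i‖ ≤ C * Real.sqrt A.card) :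
    ¬ FiniteDimensional ℝ V := by
  intro hfin
  have : FiniteDimensional ℝ (V ⧸ (⊥ : Submodule ℝ V)) := inferInstance
  obtain ⟨i, y, hy, hlt⟩ := exists_near_of_cesaro (⊥ : Submodule ℝ V)
    (by simpa using (isClosed_singleton : IsClosed ({0} : Set V))) d C hd hδ
  have : y = 0 := by simpa using hy
  rw [this, sub_zero] at hlt
  exact absurd (hlow i) (not_le.2 hlt)

end Quot

section AUC

variable (E : RealBanach)

/-- (C3) Homogeneous form of asymptotic uniform convexity for an equivalent norm `N`: for every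
`t > 0` there is `c > 0` such that every `x` with `N x > 0` has a closed finite-codimensional
subspace `S` with `N (x + y) ≥ (1 + c) N x` for all `y ∈ S` with `N y ≥ t N x`. -/
theorem auc_homogeneous (N : E.X → ℝ) (hN : E.IsEquivNorm N) (hA : E.IsAUC N) :
    letI := E.normed; letI := E.space
    ∀ t : ℝ, 0 < t → ∃ c : ℝ, 0 < c ∧ ∀ x : E.X, 0 < N x →
      ∃ S : Submodule ℝ E.X, IsClosed (S : Set E.X) ∧ FiniteDimensional ℝ (E.X ⧸ S) ∧
        ∀ y ∈ S, t * N x ≤ N y → (1 + c) * N x ≤ N (x + y) := by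
  letI := E.normed; letI := E.space
  intro t ht
  obtain ⟨hsub, hhom, a, b, ha, hab⟩ := hN
  obtain ⟨c, hc, hcx⟩ := hA t ht
  refine ⟨c, hc, fun x hx => ?_⟩
  have hx1 : N ((N x)⁻¹ • x) = 1 := by
    rw [hhom, abs_of_pos (inv_pos.2 hx), inv_mul_cancel₀ hx.ne']
  obtain ⟨F, ⟨S, hSF, hFcl, hfd⟩, hF⟩ := hcx _ hx1
  refine ⟨S, hSF ▸ hFcl, hfd, fun y hy hty => ?_⟩
  have hy0 : 0 < N y := lt_of_lt_of_le (mul_pos ht hx) hty
  have hy1 : N ((N y)⁻¹ • y) = 1 := by
    rw [hhom, abs_of_pos (inv_pos.2 hy0), inv_mul_cancel₀ hy0.ne']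
  have hyF : (N y)⁻¹ • y ∈ F := by rw [← hSF]; exact S.smul_mem _ hy
  have h1 := hF _ hyF hy1
  set lam : ℝ := t * N x / N y with hlam
  have hlam0 : 0 < lam := by positivity
  have hlam1 : lam ≤ 1 := by rw [hlam, div_le_one hy0]; exact hty
  have h2 : N (x + lam • y) = N x * N ((N x)⁻¹ • x + t • (N y)⁻¹ • y) := by
    have : x + lam • y = (N x) • ((N x)⁻¹ • x + t • (N y)⁻¹ • y) := by
      rw [smul_add, smul_smul, mul_inv_cancel₀ hx.ne', one_smul, smul_smul, smul_smul]
      congr 2
      rw [hlam]; field_simp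
    rw [this, hhom, abs_of_pos hx]
  have h3 : x + lam • y = (1 - lam) • x + lam • (x + y) := by
    rw [smul_add, sub_smul, one_smul]; abel
  have h4 : N (x + lam • y) ≤ (1 - lam) * N x + lam * N (x + y) := by
    rw [h3]
    calc N ((1 - lam) • x + lam • (x + y)) ≤ N ((1 - lam) • x) + N (lam • (x + y)) := hsub _ _
      _ = (1 - lam) * N x + lam * N (x + y) := by
        rw [hhom, hhom, abs_of_nonneg (by linarith), abs_of_pos hlam0]
  have h5 : (1 + c) * N x ≤ N (x + lam • y) := by
    rw [h2]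
    have : 1 + c ≤ N ((N x)⁻¹ • x + t • (N y)⁻¹ • y) := by linarith
    nlinarith
  have h6 : lam * ((1 + c) * N x) ≤ lam * N (x + y) := by
    have : 0 ≤ c * (1 - lam) * N x := by
      apply mul_nonneg (mul_nonneg hc.le (by linarith)) hx.le
    nlinarith
  exact le_of_mul_le_mul_left h6 hlam0

/-- (C4) Trees exclude equivalent AUC norms: if for every height `n` there is a family `z` indexed
by vertices (lists) with `‖z []‖ ≥ δ`, `‖z v‖ ≤ B` up to height `n`, increments to children of norm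
at least `δ`, and Cesaro-bounded sibling increments, then no equivalent norm is AUC. -/
theorem not_auc_of_trees (δ B C : ℝ) (hδ : 0 < δ)
    (h : letI := E.normed; letI := E.space;
      ∀ n : ℕ, ∃ z : List ℕ → E.X, δ ≤ ‖z []‖ ∧ (∀ v, v.length ≤ n → ‖z v‖ ≤ B) ∧
        (∀ v, v.length < n → ∀ i, δ ≤ ‖z (i :: v) - z v‖) ∧
        (∀ v, v.length < n → ∀ A : Finset ℕ,
          ‖∑ i ∈ A, (z (i :: v) - z v)‖ ≤ C * Real.sqrt A.card)) :
    ∀ N : E.X → ℝ, E.IsEquivNorm N → ¬ E.IsAUC N := by
  letI := E.normed; letI := E.space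
  intro N hN hA
  have hN' := hN
  obtain ⟨hsub, hhom, a, b, ha, hab⟩ := hN
  obtain ⟨z0, hz0, hzB0, -, -⟩ := h 0
  have hB : 0 < B := lt_of_lt_of_le hδ (hz0.trans (hzB0 [] (by simp)))
  have hb : 0 < b := by
    have h1 := hab (z0 [])
    have h2 : 0 < ‖z0 []‖ := lt_of_lt_of_le hδ hz0
    by_contra hb
    push Not at hb
    nlinarith [h1.1, h1.2]
  set t : ℝ := a * δ / (2 * b * B) with ht
  have htpos : 0 < t := by positivity
  obtain ⟨c, hc, hcx⟩ := auc_homogeneous E N hN' hA t htpos
  obtain ⟨n, hn⟩ : ∃ n : ℕ, b * B / (a * δ) < (1 + c / 2) ^ n :=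
    pow_unbounded_of_one_lt _ (by linarith)
  obtain ⟨z, hz, hzB, hzδ, hzC⟩ := h n
  set ε : ℝ := min (a * δ / (2 * b)) (c * a * δ / (2 * b)) with hε
  have hεpos : 0 < ε := by
    rw [hε]; apply lt_min <;> positivity
  have hε1 : b * ε ≤ a * δ / 2 := by
    have : ε ≤ a * δ / (2 * b) := min_le_left _ _
    calc b * ε ≤ b * (a * δ / (2 * b)) := mul_le_mul_of_nonneg_left this hb.le
      _ = a * δ / 2 := by field_simp
  have hε2 : b * ε ≤ c * (a * δ) / 2 := by
    have : ε ≤ c * a * δ / (2 * b) := min_le_right _ _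
    calc b * ε ≤ b * (c * a * δ / (2 * b)) := mul_le_mul_of_nonneg_left this hb.le
      _ = c * (a * δ) / 2 := by field_simp
  have step : ∀ k, k ≤ n → ∃ v : List ℕ, v.length = k ∧ (1 + c / 2) ^ k * (a * δ) ≤ N (z v) := by
    intro k
    induction k with
    | zero =>
      intro _
      refine ⟨[], rfl, ?_⟩
      have := (hab (z [])).1
      have h2 : a * δ ≤ a * ‖z []‖ := mul_le_mul_of_nonneg_left hz ha.le
      simpa using h2.trans this
    | succ k ih =>
      intro hk
      obtain ⟨v, hvl, hv⟩ := ih (by omega)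
      have hvn : v.length < n := by omega
      have hpow : (1 : ℝ) ≤ (1 + c / 2) ^ k := one_le_pow₀ (by linarith)
      have hNlow : a * δ ≤ N (z v) := by
        have : 0 < a * δ := mul_pos ha hδ
        nlinarith
      have hNpos : 0 < N (z v) := lt_of_lt_of_le (mul_pos ha hδ) hNlow
      obtain ⟨S, hScl, hSfd, hS⟩ := hcx (z v) hNpos
      haveI := hSfd
      obtain ⟨i, y, hyS, hy⟩ := exists_near_of_cesaro S hScl (fun i => z (i :: v) - z v) C
        (hzC v hvn) hεpos
      refine ⟨i :: v, by simp [hvl], ?_⟩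
      have h1 : N ((z (i :: v) - z v) - y) ≤ b * ε :=
        le_trans (hab _).2 (mul_le_mul_of_nonneg_left hy.le hb.le)
      have h2 : a * δ ≤ N (z (i :: v) - z v) :=
        le_trans (mul_le_mul_of_nonneg_left (hzδ v hvn i) ha.le) (hab _).1
      have h3 : N (z (i :: v) - z v) ≤ N ((z (i :: v) - z v) - y) + N y := by
        have := hsub ((z (i :: v) - z v) - y) y
        simpa using this
      have h4 : t * N (z v) ≤ N y := by
        have hle : N (z v) ≤ b * B :=
          le_trans (hab _).2 (mul_le_mul_of_nonneg_left (hzB v (by omega)) hb.le)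
        have htb : t * (b * B) = a * δ / 2 := by
          rw [ht]; field_simp
        have : t * N (z v) ≤ a * δ / 2 := by
          rw [← htb]; exact mul_le_mul_of_nonneg_left hle htpos.le
        linarith
      have h5 := hS y hyS h4
      have h6 : N (z v + y) ≤ N (z (i :: v)) + N ((z (i :: v) - z v) - y) := by
        have e : z v + y = z (i :: v) + (-1 : ℝ) • ((z (i :: v) - z v) - y) := by
          simp only [neg_smul, one_smul]; abel
        have h7 := hsub (z (i :: v)) ((-1 : ℝ) • ((z (i :: v) - z v) - y))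
        rw [hhom] at h7
        rw [e]
        simpa using h7
      rw [pow_succ]
      have h8 : (1 + c / 2) * N (z v) ≤ N (z (i :: v)) := by nlinarith
      calc (1 + c / 2) ^ k * (1 + c / 2) * (a * δ)
          = (1 + c / 2) * ((1 + c / 2) ^ k * (a * δ)) := by ring
        _ ≤ (1 + c / 2) * N (z v) := mul_le_mul_of_nonneg_left hv (by linarith)
        _ ≤ N (z (i :: v)) := h8
  obtain ⟨v, hvl, hv⟩ := step n le_rfl
  have hle : N (z v) ≤ b * B :=
    le_trans (hab _).2 (mul_le_mul_of_nonneg_left (hzB v (by omega)) hb.le)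
  have : b * B < (1 + c / 2) ^ n * (a * δ) := by
    rwa [div_lt_iff₀ (mul_pos ha hδ)] at hn
  linarith

/-- (C5) If every unit vector `x` and every closed finite-codimensional subspace `S` admit unit
`y ∈ S` with `‖x + 2 y‖ ≤ 1 + ε` (a consequence of the Daugavet property), then no equivalent norm
is AUC. -/
theorem not_auc_of_daugavet_like
    (h : letI := E.normed; letI := E.space;
      ∀ x : E.X, ‖x‖ = 1 → ∀ S : Submodule ℝ E.X, IsClosed (S : Set E.X) →
        FiniteDimensional ℝ (E.X ⧸ S) → ∀ ε : ℝ, 0 < ε →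
          ∃ y ∈ S, ‖y‖ = 1 ∧ ‖x + (2 : ℝ) • y‖ ≤ 1 + ε)
    (hne : letI := E.normed; ∃ x : E.X, x ≠ 0) :
    ∀ N : E.X → ℝ, E.IsEquivNorm N → ¬ E.IsAUC N := by
  letI := E.normed; letI := E.space
  intro N hN hA
  have hN' := hN
  obtain ⟨hsub, hhom, a, b, ha, hab⟩ := hN
  obtain ⟨x₀, hx₀⟩ := hne
  have hx₀pos : 0 < ‖x₀‖ := norm_pos_iff.2 hx₀
  have hb : 0 < b := by
    have h1 := hab x₀
    by_contra hb
    push Not at hb
    nlinarith [h1.1, h1.2]
  set t : ℝ := 2 * a / b with ht
  have htpos : 0 < t := by positivity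
  obtain ⟨c, hc, hcx⟩ := auc_homogeneous E N hN' hA t htpos
  have step : ∀ n : ℕ, ∃ z : E.X, (1 + c) ^ n * a ≤ N z ∧ ‖z‖ ≤ (1 + c / 2) ^ n := by
    intro n
    induction n with
    | zero =>
      refine ⟨‖x₀‖⁻¹ • x₀, ?_, ?_⟩
      · have h1 : ‖‖x₀‖⁻¹ • x₀‖ = 1 := by
          rw [norm_smul, norm_inv, norm_norm, inv_mul_cancel₀ hx₀pos.ne']
        have := (hab (‖x₀‖⁻¹ • x₀)).1
        rw [h1] at this
        simpa using this
      · rw [norm_smul, norm_inv, norm_norm, inv_mul_cancel₀ hx₀pos.ne']; simp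
    | succ n ih =>
      obtain ⟨z, hz1, hz2⟩ := ih
      have hNpos : 0 < N z := lt_of_lt_of_le (by positivity) hz1
      have hzpos : 0 < ‖z‖ := by
        have := (hab z).2
        by_contra hcon
        push Not at hcon
        nlinarith
      obtain ⟨S, hScl, hSfd, hS⟩ := hcx z hNpos
      have hunit : ‖‖z‖⁻¹ • z‖ = 1 := by
        rw [norm_smul, norm_inv, norm_norm, inv_mul_cancel₀ hzpos.ne']
      obtain ⟨y, hyS, hy1, hy2⟩ := h (‖z‖⁻¹ • z) hunit S hScl hSfd (c / 2) (by positivity)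
      refine ⟨z + (2 * ‖z‖) • y, ?_, ?_⟩
      · have h1 : N ((2 * ‖z‖) • y) = 2 * ‖z‖ * N y := by
          rw [hhom, abs_of_pos (by positivity)]
        have h2 : a ≤ N y := by
          have := (hab y).1
          rw [hy1] at this; simpa using this
        have h3 : t * N z ≤ N ((2 * ‖z‖) • y) := by
          rw [h1]
          have h4 : N z ≤ b * ‖z‖ := (hab z).2
          have h5 : t * N z ≤ t * (b * ‖z‖) := mul_le_mul_of_nonneg_left h4 htpos.le
          have h6 : t * (b * ‖z‖) = 2 * ‖z‖ * a := by rw [ht]; field_simp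
          have h7 : 2 * ‖z‖ * a ≤ 2 * ‖z‖ * N y :=
            mul_le_mul_of_nonneg_left h2 (by positivity)
          linarith
        have h8 := hS _ (S.smul_mem _ hyS) h3
        rw [pow_succ]
        calc (1 + c) ^ n * (1 + c) * a = (1 + c) * ((1 + c) ^ n * a) := by ring
          _ ≤ (1 + c) * N z := mul_le_mul_of_nonneg_left hz1 (by linarith)
          _ ≤ _ := h8
      · have e : z + (2 * ‖z‖) • y = ‖z‖ • (‖z‖⁻¹ • z + (2 : ℝ) • y) := by
          rw [smul_add, smul_smul, mul_inv_cancel₀ hzpos.ne', one_smul, smul_smul]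
          congr 2
          ring
        rw [e, norm_smul, norm_norm, pow_succ]
        calc ‖z‖ * ‖‖z‖⁻¹ • z + (2 : ℝ) • y‖ ≤ ‖z‖ * (1 + c / 2) :=
              mul_le_mul_of_nonneg_left hy2 hzpos.le
          _ ≤ (1 + c / 2) ^ n * (1 + c / 2) :=
              mul_le_mul_of_nonneg_right hz2 (by linarith)
  have hr : (1 : ℝ) < (1 + c) / (1 + c / 2) := by
    rw [lt_div_iff₀ (by linarith)]; linarith
  obtain ⟨n, hn⟩ : ∃ n : ℕ, b / a < ((1 + c) / (1 + c / 2)) ^ n := pow_unbounded_of_one_lt _ hr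
  obtain ⟨z, hz1, hz2⟩ := step n
  have h1 : N z ≤ b * (1 + c / 2) ^ n :=
    le_trans (hab z).2 (mul_le_mul_of_nonneg_left hz2 hb.le)
  have hpos : (0 : ℝ) < (1 + c / 2) ^ n := by positivity
  rw [div_pow, div_lt_div_iff₀ ha hpos] at hn
  nlinarith

end AUC

end Crest.Agent.Helper5.Row125
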