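import Mathlib
import Crest.Prelude.Def_TreePotentials

/-!
Row 125 / S0168 (helper5), part A: combinatorics of tests on the countably branching tree.
Given two tests `f`, `g`, a suffix-closed finite vertex set `T` containing the root and weights
`α, β ≥ 0` with `α² + β² ≤ 1`, we build tests `hplus`, `hminus` that agree with `α • f` on `T`, are
dominated by `β • |g|` off `T`, and whose difference is `β • g` off `T`.
-/

set_option autoImplicit false

namespace Crest.Agent.Helper5.TreePot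

open Crest.AnalysisR Crest.AnalysisR.TreePotential

/-! ### potentials -/

lemma pathPotential_neg (f : List ℕ → ℝ) (s : List ℕ) :
    pathPotential (fun u => - f u) s = - pathPotential f s := by
  induction s with
  | nil => simp [pathPotential]
  | cons a v ih => simp [pathPotential, ih]; ring

/-- coefficient family with prescribed potentials -/
def coefOf (H : List ℕ → ℝ) : List ℕ → ℝ
  | [] => H []
  | a :: v => H (a :: v) - H v

lemma pathPotential_coefOf (H : List ℕ → ℝ) (s : List ℕ) :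
    pathPotential (coefOf H) s = H s := by
  induction s with
  | nil => simp [pathPotential, coefOf]
  | cons a v ih => simp [pathPotential, coefOf, ih]

/-- boundary potential of `f`: potential of `f` at the longest suffix lying in `T`. -/
noncomputable def qfun (T : Finset (List ℕ)) (f : List ℕ → ℝ) : List ℕ → ℝ
  | [] => f []
  | a :: v => if a :: v ∈ T then pathPotential f (a :: v) else qfun T f v

/-- relative potential of `g` below `T`. -/
noncomputable def Qfun (T : Finset (List ℕ)) (g : List ℕ → ℝ) : List ℕ → ℝ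
  | [] => 0
  | a :: v => if a :: v ∈ T then 0 else Qfun T g v + g (a :: v)

lemma qQ_exists (T : Finset (List ℕ)) (f g : List ℕ → ℝ) (s : List ℕ) :
    ∃ u : List ℕ, qfun T f s = pathPotential f u ∧
      Qfun T g s = pathPotential g s - pathPotential g u := by
  induction s with
  | nil => exact ⟨[], by simp [qfun, pathPotential], by simp [Qfun]⟩
  | cons a v ih =>
    by_cases h : a :: v ∈ T
    · exact ⟨a :: v, by simp [qfun, h], by simp [Qfun, h]⟩
    · obtain ⟨u, hu1, hu2⟩ := ih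
      refine ⟨u, by simp [qfun, h, hu1], ?_⟩
      simp only [Qfun, h, if_false, hu2, pathPotential]
      ring

lemma abs_qfun_le (T : Finset (List ℕ)) (f : List ℕ → ℝ)
    (hf : ∀ s, |pathPotential f s| ≤ 1) (s : List ℕ) : |qfun T f s| ≤ 1 := by
  obtain ⟨u, hu, -⟩ := qQ_exists T f f s
  rw [hu]; exact hf u

lemma abs_Qfun_le (T : Finset (List ℕ)) (g : List ℕ → ℝ)
    (hg : ∀ s, |pathPotential g s| ≤ 1) (s : List ℕ) : |Qfun T g s| ≤ 2 := by
  obtain ⟨u, -, hu⟩ := qQ_exists T g g s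
  rw [hu]
  have h1 := hg s
  have h2 := hg u
  rw [abs_le] at h1 h2 ⊢
  constructor <;> linarith [h1.1, h1.2, h2.1, h2.2]

lemma qQ_of_mem (T : Finset (List ℕ)) (f g : List ℕ → ℝ) (s : List ℕ)
    (hs : s ∈ T ∨ s = []) : qfun T f s = pathPotential f s ∧ Qfun T g s = 0 := by
  cases s with
  | nil => simp [qfun, Qfun, pathPotential]
  | cons a v =>
    have h : a :: v ∈ T := by
      rcases hs with h | h
      · exact h
      · exact absurd h (by simp)
    simp [qfun, Qfun, h]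

/-- the potential of the combined test; `σ = 1` for `hplus`, `σ = -1` for `hminus`. -/
noncomputable def Hpot (σ α β : ℝ) (T : Finset (List ℕ)) (f g : List ℕ → ℝ) (s : List ℕ) : ℝ :=
  α * qfun T f s + σ * β * ((1 - σ * α * qfun T f s) / 2 * max (Qfun T g s) 0
    + (1 + σ * α * qfun T f s) / 2 * min (Qfun T g s) 0)

/-- the combined test -/
noncomputable def hcomb (σ α β : ℝ) (T : Finset (List ℕ)) (f g : List ℕ → ℝ) : List ℕ → ℝ :=
  coefOf (Hpot σ α β T f g)

lemma Hpot_abs_le (σ α β : ℝ) (hσ : σ = 1 ∨ σ = -1) (hα0 : 0 ≤ α) (hα1 : α ≤ 1) (hβ0 : 0 ≤ β)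
    (hβ1 : β ≤ 1) (T : Finset (List ℕ)) (f g : List ℕ → ℝ)
    (hf : ∀ s, |pathPotential f s| ≤ 1) (hg : ∀ s, |pathPotential g s| ≤ 1) (s : List ℕ) :
    |Hpot σ α β T f g s| ≤ 1 := by
  have hq := abs_qfun_le T f hf s
  have hQ := abs_Qfun_le T g hg s
  unfold Hpot
  set q := qfun T f s
  set Q := Qfun T g s
  rw [abs_le] at hq hQ ⊢
  have hu1 : -1 ≤ α * q := by nlinarith [hq.1, hq.2]
  have hu2 : α * q ≤ 1 := by nlinarith [hq.1, hq.2]
  rcases le_total 0 Q with hQ0 | hQ0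
  · rw [max_eq_left hQ0, min_eq_right hQ0]
    rcases hσ with rfl | rfl
    · constructor <;> nlinarith [mul_nonneg hβ0 hQ0, mul_nonneg (mul_nonneg hβ0 hQ0) (by linarith : (0:ℝ) ≤ 1 - α * q), mul_nonneg (by linarith : (0:ℝ) ≤ 1 - β) (by linarith : (0:ℝ) ≤ 1 - α * q), mul_nonneg (mul_nonneg hβ0 (by linarith : (0:ℝ) ≤ 2 - Q)) (by linarith : (0:ℝ) ≤ 1 - α * q)]
    · constructor <;> nlinarith [mul_nonneg hβ0 hQ0, mul_nonneg (mul_nonneg hβ0 hQ0) (by linarith : (0:ℝ) ≤ 1 + α * q), mul_nonneg (by linarith : (0:ℝ) ≤ 1 - β) (by linarith : (0:ℝ) ≤ 1 + α * q), mul_nonneg (mul_nonneg hβ0 (by linarith : (0:ℝ) ≤ 2 - Q)) (by linarith : (0:ℝ) ≤ 1 + α * q)]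
  · rw [max_eq_right hQ0, min_eq_left hQ0]
    rcases hσ with rfl | rfl
    · constructor <;> nlinarith [mul_nonneg hβ0 (neg_nonneg.2 hQ0), mul_nonneg (mul_nonneg hβ0 (neg_nonneg.2 hQ0)) (by linarith : (0:ℝ) ≤ 1 + α * q), mul_nonneg (by linarith : (0:ℝ) ≤ 1 - β) (by linarith : (0:ℝ) ≤ 1 + α * q), mul_nonneg (mul_nonneg hβ0 (by linarith : (0:ℝ) ≤ 2 + Q)) (by linarith : (0:ℝ) ≤ 1 + α * q)]
    · constructor <;> nlinarith [mul_nonneg hβ0 (neg_nonneg.2 hQ0), mul_nonneg (mul_nonneg hβ0 (neg_nonneg.2 hQ0)) (by linarith : (0:ℝ) ≤ 1 - α * q), mul_nonneg (by linarith : (0:ℝ) ≤ 1 - β) (by linarith : (0:ℝ) ≤ 1 - α * q), mul_nonneg (mul_nonneg hβ0 (by linarith : (0:ℝ) ≤ 2 + Q)) (by linarith : (0:ℝ) ≤ 1 - α * q)]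

lemma hcomb_potential (σ α β : ℝ) (T : Finset (List ℕ)) (f g : List ℕ → ℝ) (s : List ℕ) :
    pathPotential (hcomb σ α β T f g) s = Hpot σ α β T f g s :=
  pathPotential_coefOf _ s

/-- on `T` the combined test is `α • f` -/
lemma hcomb_of_mem (σ α β : ℝ) (T : Finset (List ℕ)) (hT : ∀ a v, a :: v ∈ T → v ∈ T)
    (f g : List ℕ → ℝ) (s : List ℕ) (hs : s ∈ T) : hcomb σ α β T f g s = α * f s := by
  cases s with
  | nil => simp [hcomb, coefOf, Hpot, qfun, Qfun]
  | cons a v =>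
    have h1 := qQ_of_mem T f g (a :: v) (Or.inl hs)
    have h2 := qQ_of_mem T f g v (Or.inl (hT a v hs))
    simp only [hcomb, coefOf, Hpot, h1.1, h1.2, h2.1, h2.2, pathPotential]
    simp
    ring

/-- off `T`: the increment data -/
lemma hcomb_of_not_mem (σ α β : ℝ) (T : Finset (List ℕ)) (f g : List ℕ → ℝ) (a : ℕ)
    (v : List ℕ) (hs : a :: v ∉ T) :
    hcomb σ α β T f g (a :: v) = σ * β * ((1 - σ * α * qfun T f v) / 2 *
        (max (Qfun T g v + g (a :: v)) 0 - max (Qfun T g v) 0)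
      + (1 + σ * α * qfun T f v) / 2 * (min (Qfun T g v + g (a :: v)) 0 - min (Qfun T g v) 0)) := by
  simp only [hcomb, coefOf, Hpot, qfun, Qfun, hs, if_false]
  ring

lemma maxmin_aux (Q γ : ℝ) :
    (max (Q + γ) 0 - max Q 0) + (min (Q + γ) 0 - min Q 0) = γ ∧
    (0 ≤ γ → 0 ≤ max (Q + γ) 0 - max Q 0 ∧ 0 ≤ min (Q + γ) 0 - min Q 0) ∧
    (γ ≤ 0 → max (Q + γ) 0 - max Q 0 ≤ 0 ∧ min (Q + γ) 0 - min Q 0 ≤ 0) := by
  refine ⟨?_, ?_, ?_⟩
  · rcases le_total 0 (Q + γ) with h1 | h1 <;> rcases le_total 0 Q with h2 | h2 <;>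
      simp [max_eq_left, max_eq_right, min_eq_left, min_eq_right, h1, h2]
  · intro hγ
    constructor
    · have : max Q 0 ≤ max (Q + γ) 0 := max_le_max (by linarith) le_rfl
      linarith
    · have : min Q 0 ≤ min (Q + γ) 0 := min_le_min (by linarith) le_rfl
      linarith
  · intro hγ
    constructor
    · have : max (Q + γ) 0 ≤ max Q 0 := max_le_max (by linarith) le_rfl
      linarith
    · have : min (Q + γ) 0 ≤ min Q 0 := min_le_min (by linarith) le_rfl
      linarith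

/-- off `T` the combined test is dominated by `β |g|` -/
lemma abs_hcomb_le (σ α β : ℝ) (hσ : σ = 1 ∨ σ = -1) (hα0 : 0 ≤ α) (hα1 : α ≤ 1) (hβ0 : 0 ≤ β)
    (T : Finset (List ℕ)) (hnil : [] ∈ T) (f g : List ℕ → ℝ)
    (hf : ∀ s, |pathPotential f s| ≤ 1) (s : List ℕ) (hs : s ∉ T) :
    |hcomb σ α β T f g s| ≤ β * |g s| := by
  cases s with
  | nil => exact absurd hnil hs
  | cons a v =>
    rw [hcomb_of_not_mem σ α β T f g a v hs]
    have hq := abs_qfun_le T f hf v
    set q := qfun T f v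
    set Q := Qfun T g v
    set γ := g (a :: v)
    obtain ⟨h1, h2, h3⟩ := maxmin_aux Q γ
    set A := max (Q + γ) 0 - max Q 0
    set Bm := min (Q + γ) 0 - min Q 0
    rw [abs_le] at hq
    have hu1 : -1 ≤ α * q := by nlinarith [hq.1, hq.2]
    have hu2 : α * q ≤ 1 := by nlinarith [hq.1, hq.2]
    have hw : ∀ w₁ w₂ : ℝ, 0 ≤ w₁ → w₁ ≤ 1 → 0 ≤ w₂ → w₂ ≤ 1 →
        |w₁ * A + w₂ * Bm| ≤ |γ| := by
      intro w₁ w₂ hw1 hw1' hw2 hw2'
      rcases le_total 0 γ with hγ | hγ
      · obtain ⟨hA, hB⟩ := h2 hγ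
        rw [abs_of_nonneg hγ, abs_of_nonneg (by positivity)]
        nlinarith
      · obtain ⟨hA, hB⟩ := h3 hγ
        rw [abs_of_nonpos hγ, abs_of_nonpos (by nlinarith)]
        nlinarith
    rcases hσ with rfl | rfl
    · have := hw ((1 - α * q) / 2) ((1 + α * q) / 2) (by linarith) (by linarith) (by linarith)
        (by linarith)
      have e : (1 : ℝ) * β * ((1 - 1 * α * q) / 2 * A + (1 + 1 * α * q) / 2 * Bm)
          = β * ((1 - α * q) / 2 * A + (1 + α * q) / 2 * Bm) := by ring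
      rw [e, abs_mul, abs_of_nonneg hβ0]
      exact mul_le_mul_of_nonneg_left this hβ0
    · have := hw ((1 + α * q) / 2) ((1 - α * q) / 2) (by linarith) (by linarith) (by linarith)
        (by linarith)
      have e : (-1 : ℝ) * β * ((1 - -1 * α * q) / 2 * A + (1 + -1 * α * q) / 2 * Bm)
          = -(β * ((1 + α * q) / 2 * A + (1 - α * q) / 2 * Bm)) := by ring
      rw [e, abs_neg, abs_mul, abs_of_nonneg hβ0]
      exact mul_le_mul_of_nonneg_left this hβ0

/-- off `T` the difference of the two combined tests is `β • g` -/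
lemma hcomb_sub (α β : ℝ) (T : Finset (List ℕ)) (hnil : [] ∈ T) (f g : List ℕ → ℝ)
    (s : List ℕ) (hs : s ∉ T) :
    hcomb 1 α β T f g s - hcomb (-1) α β T f g s = β * g s := by
  cases s with
  | nil => exact absurd hnil hs
  | cons a v =>
    rw [hcomb_of_not_mem 1 α β T f g a v hs, hcomb_of_not_mem (-1) α β T f g a v hs]
    obtain ⟨h1, -, -⟩ := maxmin_aux (Qfun T g v) (g (a :: v))
    linear_combination β * h1

end Crest.Agent.Helper5.TreePot
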