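import Mathlib
import Crest.Prelude.Def_TreePotentials
import Crest.Agent.Helper5.TreePotA

/-!
Row 125 / S0168 (helper5), part B: the combined tests are tests; basic tests (zero, negation,
delta); pairing of finitely supported arrays with tests; the key inequality (SMP).
-/

set_option autoImplicit false

namespace Crest.Agent.Helper5.TreePot

open Crest.AnalysisR Crest.AnalysisR.TreePotential

/-! ### extra conditions -/

lemma sum_sq_dominated {ι : Type*} (A : Finset ι) (φ : ι → List ℕ) (T : Finset (List ℕ))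
    (f g h : List ℕ → ℝ) (α β : ℝ) (hβ : 0 ≤ β)
    (hT : ∀ s ∈ T, h s = α * f s) (hTc : ∀ s ∉ T, |h s| ≤ β * |g s|) :
    ∑ i ∈ A, h (φ i) ^ 2 ≤ α ^ 2 * ∑ i ∈ A.filter (fun i => φ i ∈ T), f (φ i) ^ 2
      + β ^ 2 * ∑ i ∈ A.filter (fun i => φ i ∉ T), g (φ i) ^ 2 := by
  rw [← Finset.sum_filter_add_sum_filter_not A (fun i => φ i ∈ T), Finset.mul_sum,
    Finset.mul_sum]
  apply add_le_add
  · apply Finset.sum_le_sum
    intro i hi
    rw [Finset.mem_filter] at hi
    rw [hT _ hi.2]
    exact le_of_eq (by ring)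
  · apply Finset.sum_le_sum
    intro i hi
    rw [Finset.mem_filter] at hi
    have h1 := hTc _ hi.2
    have h2 : h (φ i) ^ 2 ≤ (β * |g (φ i)|) ^ 2 := by
      rw [← sq_abs (h (φ i))]
      exact pow_le_pow_left₀ (abs_nonneg _) h1 2
    rw [mul_pow, sq_abs] at h2
    exact h2

lemma antichain_subset {A B : Finset (List ℕ)} (hA : IsTreeAntichain A) (hBA : B ⊆ A) :
    IsTreeAntichain B :=
  fun u hu v hv huv => hA u (hBA hu) v (hBA hv) huv

lemma extra_of_dominated (m : PotentialModel) (T : Finset (List ℕ)) (hnil : [] ∈ T)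
    (f g h : List ℕ → ℝ) (α β : ℝ) (hβ : 0 ≤ β) (hab : α ^ 2 + β ^ 2 ≤ 1)
    (hf : ExtraCondition m f) (hg : ExtraCondition m g)
    (hT : ∀ s ∈ T, h s = α * f s) (hTc : ∀ s ∉ T, |h s| ≤ β * |g s|) :
    ExtraCondition m h := by
  have key : ∀ {ι : Type} (A : Finset ι) (φ : ι → List ℕ),
      ∑ i ∈ A.filter (fun i => φ i ∈ T), f (φ i) ^ 2 ≤ 1 →
      ∑ i ∈ A.filter (fun i => φ i ∉ T), g (φ i) ^ 2 ≤ 1 → ∑ i ∈ A, h (φ i) ^ 2 ≤ 1 := by
    intro ι A φ h2 h3
    have h1 := sum_sq_dominated A φ T f g h α β hβ hT hTc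
    nlinarith [sq_nonneg α, sq_nonneg β]
  cases m with
  | rootlessSibling =>
    obtain ⟨hf0, hf2⟩ := hf
    obtain ⟨-, hg2⟩ := hg
    refine ⟨by rw [hT [] hnil, hf0, mul_zero], fun r A => ?_⟩
    exact key A (fun n => n :: r) (hf2 r _) (hg2 r _)
  | rootedSibling =>
    intro r A
    exact key A (fun n => n :: r) (hf r _) (hg r _)
  | antichain =>
    obtain ⟨hf1, hf2⟩ := hf
    obtain ⟨hg1, hg2⟩ := hg
    refine ⟨?_, fun A hA => ?_⟩
    · apply (hf1.union hg1).subset
      intro s hs
      by_cases hsT : s ∈ T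
      · left
        intro h0
        apply hs
        rw [hT s hsT, h0, mul_zero]
      · right
        intro h0
        apply hs
        have := hTc s hsT
        rw [h0, abs_zero, mul_zero] at this
        exact abs_nonpos_iff.1 this
    · exact key A id (hf2 _ (antichain_subset hA (Finset.filter_subset _ _)))
        (hg2 _ (antichain_subset hA (Finset.filter_subset _ _)))
  | global =>
    intro A
    exact key A id (hf _) (hg _)

lemma isTest_hcomb (m : PotentialModel) (σ α β : ℝ) (hσ : σ = 1 ∨ σ = -1) (hα0 : 0 ≤ α)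
    (hβ0 : 0 ≤ β) (hab : α ^ 2 + β ^ 2 ≤ 1) (T : Finset (List ℕ)) (hnil : [] ∈ T)
    (hT : ∀ a v, a :: v ∈ T → v ∈ T) (f g : List ℕ → ℝ) (hf : IsTest m f) (hg : IsTest m g) :
    IsTest m (hcomb σ α β T f g) := by
  have hα1 : α ≤ 1 := by nlinarith [sq_nonneg β]
  have hβ1 : β ≤ 1 := by nlinarith [sq_nonneg α]
  refine ⟨fun s => ?_, ?_⟩
  · rw [hcomb_potential]
    exact Hpot_abs_le σ α β hσ hα0 hα1 hβ0 hβ1 T f g hf.1 hg.1 s
  · exact extra_of_dominated m T hnil f g _ α β hβ0 hab hf.2 hg.2
      (fun s hs => hcomb_of_mem σ α β T hT f g s hs)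
      (fun s hs => abs_hcomb_le σ α β hσ hα0 hα1 hβ0 T hnil f g hf.1 s hs)

/-! ### basic tests -/

lemma isTest_zero (m : PotentialModel) : IsTest m (fun _ => (0 : ℝ)) := by
  have hp : ∀ s, pathPotential (fun _ => (0 : ℝ)) s = 0 := by
    intro s
    induction s with
    | nil => simp [pathPotential]
    | cons a v ih => simp [pathPotential, ih]
  refine ⟨fun s => by rw [hp s]; simp, ?_⟩
  cases m <;> simp [ExtraCondition, IsTreeAntichain]

lemma isTest_neg (m : PotentialModel) (f : List ℕ → ℝ) (hf : IsTest m f) :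
    IsTest m (fun u => - f u) := by
  refine ⟨fun s => by rw [pathPotential_neg, abs_neg]; exact hf.1 s, ?_⟩
  have hsupp : Function.support (fun u => - f u) = Function.support f := by
    ext u; simp
  obtain ⟨-, hf2⟩ := hf
  cases m with
  | rootlessSibling =>
    exact ⟨by simp [hf2.1], fun r A => by simpa using hf2.2 r A⟩
  | rootedSibling =>
    exact fun r A => by simpa using hf2 r A
  | antichain =>
    exact ⟨by rw [hsupp]; exact hf2.1, fun A hA => by simpa using hf2.2 A hA⟩
  | global =>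
    exact fun A => by simpa using hf2 A

/-- the delta family at `s` -/
noncomputable def delta (s : List ℕ) : List ℕ → ℝ := fun u => if u = s then 1 else 0

lemma pathPotential_delta (s u : List ℕ) :
    pathPotential (delta s) u = if s <:+ u then 1 else 0 := by
  induction u with
  | nil =>
    simp only [pathPotential, delta, List.suffix_nil]
    by_cases h : s = []
    · simp [h]
    · have : ¬ ([] = s) := fun h' => h h'.symm
      simp [h, this]
  | cons a v ih =>
    simp only [pathPotential, ih, delta, List.suffix_cons_iff]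
    by_cases h1 : s <:+ v
    · have h2 : ¬ (a :: v = s) := by
        intro h2
        have := h1.length_le
        rw [← h2] at this
        simp at this
      simp [h1, h2]
    · by_cases h2 : a :: v = s
      · simp [h1, h2]
      · have : ¬ (s = a :: v) := fun h' => h2 h'.symm
        simp [h1, h2, this]

lemma sum_delta_sq_le {ι : Type*} (A : Finset ι) (φ : ι → List ℕ) (hφ : Function.Injective φ)
    (s : List ℕ) : ∑ i ∈ A, delta s (φ i) ^ 2 ≤ 1 := by
  classical
  have h1 : ∀ i, delta s (φ i) ^ 2 = if φ i = s then 1 else 0 := by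
    intro i
    by_cases h : φ i = s <;> simp [delta, h]
  simp_rw [h1]
  rw [Finset.sum_ite, Finset.sum_const_zero, add_zero, Finset.sum_const, nsmul_eq_mul, mul_one]
  have : (A.filter (fun i => φ i = s)).card ≤ 1 := by
    rw [Finset.card_le_one]
    intro a ha b hb
    rw [Finset.mem_filter] at ha hb
    exact hφ (ha.2.trans hb.2.symm)
  exact_mod_cast this

lemma isTest_delta (m : PotentialModel) (s : List ℕ) (hs : s ≠ []) : IsTest m (delta s) := by
  refine ⟨fun u => ?_, ?_⟩
  · rw [pathPotential_delta]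
    by_cases h : s <:+ u <;> simp [h]
  · have hinj : ∀ r : List ℕ, Function.Injective (fun n : ℕ => n :: r) := by
      intro r a b hab
      simpa using hab
    cases m with
    | rootlessSibling =>
      refine ⟨?_, fun r A => sum_delta_sq_le A _ (hinj r) s⟩
      have : ¬ ([] = s) := fun h' => hs h'.symm
      simp [delta, this]
    | rootedSibling =>
      exact fun r A => sum_delta_sq_le A _ (hinj r) s
    | antichain =>
      refine ⟨?_, fun A _ => sum_delta_sq_le A id Function.injective_id s⟩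
      apply (Set.finite_singleton s).subset
      intro u hu
      by_contra hne
      apply hu
      have : ¬ (u = s) := hne
      simp [delta, this]
    | global =>
      exact fun A => sum_delta_sq_le A id Function.injective_id s

/-! ### pairing -/

/-- the vector of a finitely supported coefficient array -/
noncomputable def vec (m : PotentialModel) (c : List ℕ →₀ ℝ) :
    lp (fun _ : PotentialTest m => ℝ) ⊤ :=
  Finsupp.linearCombination ℝ (coordVector m) c

/-- pairing of a finitely supported array with a coefficient family -/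
noncomputable def pair (c : List ℕ →₀ ℝ) (f : List ℕ → ℝ) : ℝ := ∑ s ∈ c.support, c s * f s

lemma vec_apply (m : PotentialModel) (c : List ℕ →₀ ℝ) (f : PotentialTest m) :
    (vec m c : PotentialTest m → ℝ) f = pair c f.1 := by
  simp only [vec, Finsupp.linearCombination_apply, Finsupp.sum, pair]
  rw [lp.coeFn_sum, Finset.sum_apply]
  apply Finset.sum_congr rfl
  intro s _
  rw [lp.coeFn_smul]
  rfl

lemma pair_neg (c : List ℕ →₀ ℝ) (f : List ℕ → ℝ) : pair c (fun u => - f u) = - pair c f := by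
  simp [pair]

lemma pair_le_norm (m : PotentialModel) (c : List ℕ →₀ ℝ) (f : PotentialTest m) :
    pair c f.1 ≤ ‖vec m c‖ := by
  have h := lp.norm_apply_le_norm (p := ⊤) (by simp) (vec m c) f
  rw [vec_apply, Real.norm_eq_abs] at h
  exact (le_abs_self _).trans h

lemma apply_le_norm (m : PotentialModel) (z : lp (fun _ : PotentialTest m => ℝ) ⊤)
    (f : PotentialTest m) : (z : PotentialTest m → ℝ) f ≤ ‖z‖ := by
  have h := lp.norm_apply_le_norm (p := ⊤) (by simp) z f
  rw [Real.norm_eq_abs] at h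
  exact (le_abs_self _).trans h

lemma exists_test_near (m : PotentialModel) (c : List ℕ →₀ ℝ) {ε : ℝ} (hε : 0 < ε) :
    ∃ f : PotentialTest m, ‖vec m c‖ - ε < pair c f.1 := by
  haveI : Nonempty (PotentialTest m) := ⟨⟨_, isTest_zero m⟩⟩
  have h1 : ‖vec m c‖ - ε < ⨆ f : PotentialTest m, ‖(vec m c : PotentialTest m → ℝ) f‖ := by
    rw [← lp.norm_eq_ciSup]; linarith
  obtain ⟨f, hf⟩ := exists_lt_of_lt_ciSup h1
  rw [vec_apply, Real.norm_eq_abs] at hf
  by_cases h0 : 0 ≤ pair c f.1
  · exact ⟨f, by rwa [abs_of_nonneg h0] at hf⟩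
  · push Not at h0
    refine ⟨⟨_, isTest_neg m f.1 f.2⟩, ?_⟩
    rw [abs_of_neg h0] at hf
    simpa [pair_neg] using hf

/-- (SMP) for finitely supported arrays -/
theorem smp_finsupp (m : PotentialModel) (T : Finset (List ℕ)) (hnil : [] ∈ T)
    (hT : ∀ a v, a :: v ∈ T → v ∈ T) (c b : List ℕ →₀ ℝ) (hc : ∀ s ∈ c.support, s ∈ T)
    (hb : ∀ s ∈ b.support, s ∉ T) (α β : ℝ) (hα : 0 ≤ α) (hβ : 0 ≤ β)
    (hab : α ^ 2 + β ^ 2 ≤ 1) :
    2 * α * ‖vec m c‖ + β * ‖vec m b‖ ≤ ‖vec m c + vec m b‖ + ‖vec m c - vec m b‖ := by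
  have hα1 : α ≤ 1 := by nlinarith [sq_nonneg β]
  have hβ1 : β ≤ 1 := by nlinarith [sq_nonneg α]
  apply le_of_forall_pos_le_add
  intro ε hε
  obtain ⟨f, hf⟩ := exists_test_near m c (ε := ε / 3) (by positivity)
  obtain ⟨g, hg⟩ := exists_test_near m b (ε := ε / 3) (by positivity)
  set hp : PotentialTest m := ⟨hcomb 1 α β T f.1 g.1,
    isTest_hcomb m 1 α β (Or.inl rfl) hα hβ hab T hnil hT f.1 g.1 f.2 g.2⟩ with hhp
  set hm : PotentialTest m := ⟨hcomb (-1) α β T f.1 g.1,
    isTest_hcomb m (-1) α β (Or.inr rfl) hα hβ hab T hnil hT f.1 g.1 f.2 g.2⟩ with hhm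
  have h1 : (vec m c + vec m b : lp (fun _ : PotentialTest m => ℝ) ⊤) hp
      = α * pair c f.1 + pair b hp.1 := by
    rw [lp.coeFn_add, Pi.add_apply, vec_apply, vec_apply]
    congr 1
    simp only [pair, Finset.mul_sum]
    apply Finset.sum_congr rfl
    intro s hs
    rw [hhp]
    simp only
    rw [hcomb_of_mem 1 α β T hT f.1 g.1 s (hc s hs)]
    ring
  have h2 : (vec m c - vec m b : lp (fun _ : PotentialTest m => ℝ) ⊤) hm
      = α * pair c f.1 - pair b hm.1 := by
    rw [lp.coeFn_sub, Pi.sub_apply, vec_apply, vec_apply]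
    congr 1
    simp only [pair, Finset.mul_sum]
    apply Finset.sum_congr rfl
    intro s hs
    rw [hhm]
    simp only
    rw [hcomb_of_mem (-1) α β T hT f.1 g.1 s (hc s hs)]
    ring
  have h3 : pair b hp.1 - pair b hm.1 = β * pair b g.1 := by
    simp only [pair, Finset.mul_sum, ← Finset.sum_sub_distrib]
    apply Finset.sum_congr rfl
    intro s hs
    rw [hhp, hhm]
    simp only
    rw [← mul_sub, hcomb_sub α β T hnil f.1 g.1 s (hb s hs)]
    ring
  have h4 := apply_le_norm m (vec m c + vec m b) hp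
  have h5 := apply_le_norm m (vec m c - vec m b) hm
  rw [h1] at h4
  rw [h2] at h5
  nlinarith [norm_nonneg (vec m c), norm_nonneg (vec m b)]

/-- (SMP) the key inequality: for `x` in the span of the coordinate vectors of a finite
suffix-closed vertex set `T ∋ []` and `y` in the closed span of the other coordinate vectors. -/
theorem smp (m : PotentialModel) (T : Finset (List ℕ)) (hnil : [] ∈ T)
    (hT : ∀ a v, a :: v ∈ T → v ∈ T) (x y : lp (fun _ : PotentialTest m => ℝ) ⊤)
    (hx : x ∈ Submodule.span ℝ (coordVector m '' (T : Set (List ℕ))))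
    (hy : y ∈ (Submodule.span ℝ (coordVector m '' ((T : Set (List ℕ))ᶜ))).topologicalClosure)
    (α β : ℝ) (hα : 0 ≤ α) (hβ : 0 ≤ β) (hab : α ^ 2 + β ^ 2 ≤ 1) :
    2 * α * ‖x‖ + β * ‖y‖ ≤ ‖x + y‖ + ‖x - y‖ := by
  obtain ⟨c, hc, rfl⟩ := (Finsupp.mem_span_image_iff_linearCombination ℝ).1 hx
  rw [Finsupp.mem_supported] at hc
  have hcl : IsClosed {y : lp (fun _ : PotentialTest m => ℝ) ⊤ |
      2 * α * ‖Finsupp.linearCombination ℝ (coordVector m) c‖ + β * ‖y‖
        ≤ ‖Finsupp.linearCombination ℝ (coordVector m) c + y‖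
          + ‖Finsupp.linearCombination ℝ (coordVector m) c - y‖} :=
    isClosed_le (by fun_prop) (by fun_prop)
  have hsub : ((Submodule.span ℝ (coordVector m '' ((T : Set (List ℕ))ᶜ)) :
      Submodule ℝ (lp (fun _ : PotentialTest m => ℝ) ⊤)) : Set _) ⊆
      {y : lp (fun _ : PotentialTest m => ℝ) ⊤ |
      2 * α * ‖Finsupp.linearCombination ℝ (coordVector m) c‖ + β * ‖y‖
        ≤ ‖Finsupp.linearCombination ℝ (coordVector m) c + y‖
          + ‖Finsupp.linearCombination ℝ (coordVector m) c - y‖} := by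
    intro y hy
    obtain ⟨b, hb, rfl⟩ := (Finsupp.mem_span_image_iff_linearCombination ℝ).1 hy
    rw [Finsupp.mem_supported] at hb
    exact smp_finsupp m T hnil hT c b (fun s hs => by exact_mod_cast hc hs)
      (fun s hs => by simpa using hb hs) α β hα hβ hab
  have := closure_minimal hsub hcl
  rw [← Submodule.topologicalClosure_coe] at this
  exact this hy

end Crest.Agent.Helper5.TreePot
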