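import Mathlib
import Crest.Prelude.Def_TreePotentials
import Crest.Agent.Helper5.Row125Core
import Crest.Agent.Helper5.TreePotB

/-!
Row 125 / S0168 (helper5), part C: cofinite subspaces, the midpoint modulus of the four model
spaces, the branch tree, separability and infinite-dimensionality.
-/

set_option autoImplicit false

namespace Crest.Agent.Helper5.TreePot

open Crest.AnalysisR Crest.AnalysisR.TreePotential Crest.Agent.Helper5.Row125

/-! ### a generic cofinite-subspace lemma -/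

/-- If `X` is finite-dimensional, `Y` closed and `X ≤ M ≤ Y ⊔ X`, then `Y ∩ M` is a closed subspace
of `M` of finite codimension. -/
theorem cofinite_comap {L : Type*} [NormedAddCommGroup L] [NormedSpace ℝ L]
    (M X Y : Submodule ℝ L) [FiniteDimensional ℝ X] (hY : IsClosed (Y : Set L))
    (hXM : X ≤ M) (hM : M ≤ Y ⊔ X) :
    IsClosed ((Y.comap M.subtype : Submodule ℝ M) : Set M) ∧
      FiniteDimensional ℝ (M ⧸ Y.comap M.subtype) := by
  refine ⟨hY.preimage continuous_subtype_val, ?_⟩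
  let ψ : X →ₗ[ℝ] (M ⧸ Y.comap M.subtype) :=
    (Y.comap M.subtype).mkQ.comp (Submodule.inclusion hXM)
  have hsurj : Function.Surjective ψ := by
    intro q
    obtain ⟨z, rfl⟩ := Submodule.Quotient.mk_surjective _ q
    obtain ⟨y, hy, x, hx, hyx⟩ := Submodule.mem_sup.1 (hM z.2)
    refine ⟨⟨x, hx⟩, ?_⟩
    change Submodule.Quotient.mk (Submodule.inclusion hXM ⟨x, hx⟩) = Submodule.Quotient.mk z
    rw [Submodule.Quotient.eq]
    change ((Submodule.inclusion hXM ⟨x, hx⟩ - z : M) : L) ∈ Y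
    have : ((Submodule.inclusion hXM ⟨x, hx⟩ - z : M) : L) = -y := by
      rw [Submodule.coe_sub, ← hyx]
      simp [Submodule.inclusion]
    rw [this]
    exact Y.neg_mem hy
  exact Module.Finite.of_surjective ψ hsurj

/-! ### approximation by finitely supported vectors with suffix-closed support -/

lemma suffix_mem_of_cons_closed (P : Set (List ℕ)) (hP : ∀ a v, a :: v ∈ P → v ∈ P)
    (s u : List ℕ) (hs : s ∈ P) (hu : u <:+ s) : u ∈ P := by
  induction s with
  | nil =>
    rw [List.suffix_nil] at hu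
    rw [hu]; exact hs
  | cons a v ih =>
    rw [List.suffix_cons_iff] at hu
    rcases hu with rfl | hu
    · exact hs
    · exact ih (hP a v hs) hu

theorem exists_approx (m : PotentialModel) (P : Set (List ℕ))
    (hP : ∀ a v, a :: v ∈ P → v ∈ P) (hnilP : [] ∈ P)
    (x : lp (fun _ : PotentialTest m => ℝ) ⊤)
    (hx : x ∈ (Submodule.span ℝ (coordVector m '' P)).topologicalClosure)
    (ε : ℝ) (hε : 0 < ε) :
    ∃ T : Finset (List ℕ), [] ∈ T ∧ (∀ a v, a :: v ∈ T → v ∈ T) ∧ (T : Set (List ℕ)) ⊆ P ∧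
      ∃ x' ∈ Submodule.span ℝ (coordVector m '' (T : Set (List ℕ))), ‖x - x'‖ < ε := by
  classical
  have hx' : x ∈ closure ((Submodule.span ℝ (coordVector m '' P) :
      Submodule ℝ (lp (fun _ : PotentialTest m => ℝ) ⊤)) : Set _) := by
    rw [← Submodule.topologicalClosure_coe]; exact hx
  obtain ⟨x', hx'mem, hdist⟩ := Metric.mem_closure_iff.1 hx' ε hε
  obtain ⟨c, hc, rfl⟩ := (Finsupp.mem_span_image_iff_linearCombination ℝ).1 hx'mem
  rw [Finsupp.mem_supported] at hc
  refine ⟨c.support.biUnion (fun s => s.tails.toFinset) ∪ {[]}, by simp, ?_, ?_, ?_⟩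
  · intro a v hav
    simp only [Finset.mem_union, Finset.mem_biUnion, List.mem_toFinset, List.mem_tails,
      Finset.mem_singleton] at hav ⊢
    rcases hav with ⟨s, hs, hsuf⟩ | h
    · exact Or.inl ⟨s, hs, (List.suffix_cons a v).trans hsuf⟩
    · exact absurd h (by simp)
  · intro u hu
    simp only [Finset.coe_union, Finset.coe_biUnion, Finset.coe_singleton, Set.mem_union,
      Set.mem_iUnion, Finset.mem_coe, List.mem_toFinset, List.mem_tails,
      Set.mem_singleton_iff] at hu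
    rcases hu with ⟨s, hs, hsuf⟩ | rfl
    · exact suffix_mem_of_cons_closed P hP s u (hc hs) hsuf
    · exact hnilP
  · refine ⟨Finsupp.linearCombination ℝ (coordVector m) c, ?_, by rwa [dist_eq_norm] at hdist⟩
    rw [Finsupp.mem_span_image_iff_linearCombination]
    refine ⟨c, ?_, rfl⟩
    rw [Finsupp.mem_supported]
    intro s hs
    simp only [Finset.coe_union, Finset.coe_biUnion, Finset.coe_singleton, Set.mem_union,
      Set.mem_iUnion, Finset.mem_coe, List.mem_toFinset, List.mem_tails,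
      Set.mem_singleton_iff]
    exact Or.inl ⟨s, hs, List.suffix_refl s⟩

/-! ### the optimal weights -/

lemma weights (t : ℝ) (_ht : 0 < t) :
    ∃ α β : ℝ, 0 ≤ α ∧ α ≤ 1 ∧ 0 ≤ β ∧ α ^ 2 + β ^ 2 ≤ 1 ∧
      α + β * t / 2 = Real.sqrt (1 + t ^ 2 / 4) := by
  have hpos : 0 < 1 + t ^ 2 / 4 := by positivity
  have hs : 0 < Real.sqrt (1 + t ^ 2 / 4) := Real.sqrt_pos.2 hpos
  have hsq : Real.sqrt (1 + t ^ 2 / 4) ^ 2 = 1 + t ^ 2 / 4 := Real.sq_sqrt hpos.le
  have h1 : 1 ≤ Real.sqrt (1 + t ^ 2 / 4) := by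
    rw [← Real.sqrt_one]
    exact Real.sqrt_le_sqrt (by nlinarith [sq_nonneg t])
  refine ⟨1 / Real.sqrt (1 + t ^ 2 / 4), (t / 2) / Real.sqrt (1 + t ^ 2 / 4), by positivity,
    ?_, by positivity, ?_, ?_⟩
  · rw [div_le_one hs]; exact h1
  · rw [div_pow, div_pow, ← add_div, hsq]
    have : (1 : ℝ) ^ 2 + (t / 2) ^ 2 = 1 + t ^ 2 / 4 := by ring
    rw [this, div_self hpos.ne']
  · set s := Real.sqrt (1 + t ^ 2 / 4) with hsdef
    have e : 1 / s + t / 2 / s * t / 2 = (1 + t ^ 2 / 4) / s := by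
      field_simp
      ring
    rw [e, ← hsq, sq, mul_div_assoc, div_self hs.ne', mul_one]

/-- the closed span of the coordinate vectors of a vertex set -/
noncomputable def cspan (m : PotentialModel) (P : Set (List ℕ)) :
    Submodule ℝ (lp (fun _ : PotentialTest m => ℝ) ⊤) :=
  (Submodule.span ℝ (coordVector m '' P)).topologicalClosure

lemma modelSpace_eq_cspan (m : PotentialModel) : modelSpace m = cspan m Set.univ := by
  unfold cspan modelSpace
  rw [Set.image_univ]

/-! ### the midpoint modulus -/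

/-- the core of the midpoint estimate, for a closed subspace `M` of the ambient space generated
by the coordinate vectors of a suffix-closed vertex set `P`. -/
theorem midpoint_core (m : PotentialModel) (P : Set (List ℕ))
    (hP : ∀ a v, a :: v ∈ P → v ∈ P) (hnilP : [] ∈ P)
    (x : cspan m P) (η : ℝ) (hη : 0 < η) :
    ∃ S : Submodule ℝ (cspan m P),
      IsClosed (S : Set (cspan m P)) ∧ FiniteDimensional ℝ (cspan m P ⧸ S) ∧
      ∀ y ∈ S, ∀ α β : ℝ, 0 ≤ α → α ≤ 1 → 0 ≤ β → α ^ 2 + β ^ 2 ≤ 1 →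
        α * ‖x‖ + β * ‖y‖ / 2 - η ≤ (‖x + y‖ + ‖x - y‖) / 2 := by
  classical
  obtain ⟨T, hnil, hT, hTP, x', hx', hdist⟩ := exists_approx m P hP hnilP x.1 x.2 (η / 2) (by positivity)
  set X : Submodule ℝ (lp (fun _ : PotentialTest m => ℝ) ⊤) :=
    Submodule.span ℝ (coordVector m '' (T : Set (List ℕ))) with hX
  set Y : Submodule ℝ (lp (fun _ : PotentialTest m => ℝ) ⊤) :=
    (Submodule.span ℝ (coordVector m '' ((T : Set (List ℕ))ᶜ))).topologicalClosure with hY
  haveI : FiniteDimensional ℝ X :=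
    FiniteDimensional.span_of_finite ℝ ((Finset.finite_toSet T).image _)
  have hYcl : IsClosed (Y : Set (lp (fun _ : PotentialTest m => ℝ) ⊤)) :=
    Submodule.isClosed_topologicalClosure _
  have hXM : X ≤ cspan m P :=
    (Submodule.span_mono (Set.image_mono hTP)).trans (Submodule.le_topologicalClosure _)
  have hM : cspan m P ≤ Y ⊔ X := by
    apply Submodule.topologicalClosure_minimal _ _
      (Submodule.isClosed_sup_finiteDimensional Y X hYcl)
    rw [Submodule.span_le]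
    rintro _ ⟨s, -, rfl⟩
    by_cases hs : s ∈ T
    · exact (le_sup_right : X ≤ Y ⊔ X) (Submodule.subset_span ⟨s, hs, rfl⟩)
    · exact (le_sup_left : Y ≤ Y ⊔ X) (Submodule.le_topologicalClosure _
        (Submodule.subset_span ⟨s, hs, rfl⟩))
  obtain ⟨hScl, hSfd⟩ := cofinite_comap (cspan m P) X Y hYcl hXM hM
  refine ⟨Y.comap (cspan m P).subtype, hScl, hSfd, ?_⟩
  intro y hy α β hα hα1 hβ hab
  have hyY : y.1 ∈ Y := hy
  have hsmp := smp m T hnil hT x' y.1 hx' hyY α β hα hβ hab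
  change α * ‖x.1‖ + β * ‖y.1‖ / 2 - η ≤ (‖x.1 + y.1‖ + ‖x.1 - y.1‖) / 2
  set xx : lp (fun _ : PotentialTest m => ℝ) ⊤ := x.1
  set yy : lp (fun _ : PotentialTest m => ℝ) ⊤ := y.1
  have h1 : ‖xx‖ ≤ ‖x'‖ + ‖xx - x'‖ := by
    have := norm_add_le x' (xx - x')
    simpa using this
  have h2 : ‖x' + yy‖ ≤ ‖xx + yy‖ + ‖xx - x'‖ := by
    have := norm_sub_le (xx + yy) (xx - x')
    have e : xx + yy - (xx - x') = x' + yy := by abel
    rwa [e] at this
  have h3 : ‖x' - yy‖ ≤ ‖xx - yy‖ + ‖xx - x'‖ := by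
    have := norm_sub_le (xx - yy) (xx - x')
    have e : xx - yy - (xx - x') = x' - yy := by abel
    rwa [e] at this
  have h4 : α * ‖xx‖ ≤ α * ‖x'‖ + ‖xx - x'‖ := by
    have : α * ‖xx‖ ≤ α * (‖x'‖ + ‖xx - x'‖) := mul_le_mul_of_nonneg_left h1 hα
    have h5 : α * ‖xx - x'‖ ≤ ‖xx - x'‖ := by
      have := mul_le_mul_of_nonneg_right hα1 (norm_nonneg (xx - x'))
      simpa using this
    nlinarith
  linarith

/-- the averaged midpoint modulus of the model space of `m` is at least `√(1 + t²/4) - 1`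
(for every `t > 0`). -/
theorem midpoint_model (m : PotentialModel) (t : ℝ) (ht : 0 < t) :
    (modelBanach m).MidpointModulusGE (modelBanach m).norm t
      (Real.sqrt (1 + t ^ 2 / 4) - 1) := by
  intro x hx η hη
  have hP : ∀ a v, a :: v ∈ (Set.univ : Set (List ℕ)) → v ∈ (Set.univ : Set (List ℕ)) :=
    fun _ _ _ => Set.mem_univ _
  revert x
  change ∀ x : modelSpace m, ‖x‖ = 1 → ∃ F : Set (modelSpace m), (modelBanach m).IsCof F ∧
    ∀ y ∈ F, ‖y‖ = 1 → Real.sqrt (1 + t ^ 2 / 4) - 1 - η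
      ≤ (‖x + t • y‖ + ‖x - t • y‖) / 2 - 1
  have key : ∀ (M : Submodule ℝ (lp (fun _ : PotentialTest m => ℝ) ⊤)),
      M = cspan m Set.univ →
      ∀ x : M, ‖x‖ = 1 → ∃ S : Submodule ℝ M, IsClosed (S : Set M) ∧
        FiniteDimensional ℝ (M ⧸ S) ∧ ∀ y ∈ S, ‖y‖ = 1 → Real.sqrt (1 + t ^ 2 / 4) - 1 - η
          ≤ (‖x + t • y‖ + ‖x - t • y‖) / 2 - 1 := by
    intro M hM
    subst hM
    intro x hx
    obtain ⟨S, hScl, hSfd, hS⟩ := midpoint_core m Set.univ hP (Set.mem_univ _) x η hη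
    refine ⟨S, hScl, hSfd, fun y hy hy1 => ?_⟩
    obtain ⟨α, β, hα, hα1, hβ, hab, hval⟩ := weights t ht
    have h := hS (t • y) (S.smul_mem t hy) α β hα hα1 hβ hab
    rw [hx, norm_smul, hy1, Real.norm_eq_abs, abs_of_pos ht] at h
    have : α * 1 + β * (t * 1) / 2 = Real.sqrt (1 + t ^ 2 / 4) := by rw [← hval]; ring
    linarith
  intro x hx
  obtain ⟨S, hScl, hSfd, hS⟩ := key (modelSpace m) (modelSpace_eq_cspan m) x hx
  exact ⟨(S : Set (modelSpace m)), ⟨S, rfl, hScl, hSfd⟩, hS⟩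

end Crest.Agent.Helper5.TreePot
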