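import Mathlib
import Crest.Prelude.Def_TreePotentials
import Crest.Agent.Helper5.Row125Core
import Crest.Agent.Helper5.TreePotC

/-!
Row 125 / S0168 (helper5), part D: the branch tree in the model spaces, separability, infinite
dimension, and non-existence of equivalent AUC norms.
-/

set_option autoImplicit false

namespace Crest.Agent.Helper5.TreePot

open Crest.AnalysisR Crest.AnalysisR.TreePotential Crest.Agent.Helper5.Row125

/-- the branch vector of a vertex: the function `f ↦ pathPotential f v` on tests -/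
noncomputable def branchVec (m : PotentialModel) (v : List ℕ) :
    lp (fun _ : PotentialTest m => ℝ) ⊤ :=
  ⟨fun f => pathPotential f.1 v, memℓp_infty ⟨1, by
    rintro _ ⟨f, rfl⟩
    simpa [Real.norm_eq_abs] using f.2.1 v⟩⟩

lemma branchVec_apply (m : PotentialModel) (v : List ℕ) (f : PotentialTest m) :
    (branchVec m v : PotentialTest m → ℝ) f = pathPotential f.1 v := rfl

lemma coordVector_apply (m : PotentialModel) (s : List ℕ) (f : PotentialTest m) :
    (coordVector m s : PotentialTest m → ℝ) f = f.1 s := rfl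

lemma branchVec_nil (m : PotentialModel) : branchVec m [] = coordVector m [] := by
  ext f
  rfl

lemma branchVec_cons (m : PotentialModel) (a : ℕ) (v : List ℕ) :
    branchVec m (a :: v) = branchVec m v + coordVector m (a :: v) := by
  ext f
  rfl

lemma norm_branchVec_le (m : PotentialModel) (v : List ℕ) : ‖branchVec m v‖ ≤ 1 := by
  apply lp.norm_le_of_forall_le zero_le_one
  intro f
  rw [branchVec_apply, Real.norm_eq_abs]
  exact f.2.1 v

lemma coordVector_mem_cspan (m : PotentialModel) (P : Set (List ℕ)) (s : List ℕ) (hs : s ∈ P) :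
    coordVector m s ∈ cspan m P :=
  Submodule.le_topologicalClosure _ (Submodule.subset_span ⟨s, hs, rfl⟩)

lemma branchVec_mem_cspan (m : PotentialModel) (P : Set (List ℕ))
    (hP : ∀ a v, a :: v ∈ P → v ∈ P) (hnilP : [] ∈ P) (v : List ℕ) (hv : v ∈ P) :
    branchVec m v ∈ cspan m P := by
  induction v with
  | nil => rw [branchVec_nil]; exact coordVector_mem_cspan m P [] hnilP
  | cons a v ih =>
    rw [branchVec_cons]
    exact (cspan m P).add_mem (ih (hP a v hv)) (coordVector_mem_cspan m P _ hv)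

lemma one_le_norm_coordVector (m : PotentialModel) (s : List ℕ) (hs : s ≠ []) :
    1 ≤ ‖coordVector m s‖ := by
  have h := apply_le_norm m (coordVector m s) ⟨delta s, isTest_delta m s hs⟩
  have e : (1 : ℝ) = delta s s := by simp [delta]
  calc (1 : ℝ) = delta s s := e
    _ ≤ ‖coordVector m s‖ := h

lemma one_le_norm_branchVec (m : PotentialModel) (s : List ℕ) (hs : s ≠ []) :
    1 ≤ ‖branchVec m s‖ := by
  have h := apply_le_norm m (branchVec m s) ⟨delta s, isTest_delta m s hs⟩
  have e : (1 : ℝ) = pathPotential (delta s) s := by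
    rw [pathPotential_delta]; simp
  calc (1 : ℝ) = pathPotential (delta s) s := e
    _ ≤ ‖branchVec m s‖ := h

lemma sibling_sq_le (m : PotentialModel) (f : List ℕ → ℝ) (hf : IsTest m f) (v : List ℕ)
    (A : Finset ℕ) : ∑ i ∈ A, f (i :: v) ^ 2 ≤ 1 := by
  classical
  have hinj : Function.Injective (fun n : ℕ => n :: v) := by
    intro a b hab
    simpa using hab
  have himg : ∑ u ∈ A.image (fun n : ℕ => n :: v), f u ^ 2 = ∑ i ∈ A, f (i :: v) ^ 2 :=
    Finset.sum_image (fun a _ b _ hab => hinj hab)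
  obtain ⟨-, hf2⟩ := hf
  cases m with
  | rootlessSibling => exact hf2.2 v A
  | rootedSibling => exact hf2 v A
  | antichain =>
    rw [← himg]
    apply hf2.2
    intro u hu w hw huw hsuf
    rw [Finset.mem_image] at hu hw
    obtain ⟨a, -, rfl⟩ := hu
    obtain ⟨b, -, rfl⟩ := hw
    apply huw
    exact hsuf.eq_of_length (by simp)
  | global =>
    rw [← himg]
    exact hf2 _

lemma norm_sum_siblings_le (m : PotentialModel) (v : List ℕ) (A : Finset ℕ) :
    ‖∑ i ∈ A, coordVector m (i :: v)‖ ≤ Real.sqrt A.card := by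
  apply lp.norm_le_of_forall_le (Real.sqrt_nonneg _)
  intro f
  rw [lp.coeFn_sum, Finset.sum_apply, Real.norm_eq_abs]
  simp only [coordVector_apply]
  apply Real.abs_le_sqrt
  calc (∑ i ∈ A, f.1 (i :: v)) ^ 2 ≤ A.card * ∑ i ∈ A, f.1 (i :: v) ^ 2 :=
        sq_sum_le_card_mul_sum_sq
    _ ≤ A.card * 1 := by
        apply mul_le_mul_of_nonneg_left (sibling_sq_le m f.1 f.2 v A) (Nat.cast_nonneg _)
    _ = A.card := mul_one _

/-- the tree hypothesis of `not_auc_of_trees` inside `cspan m P`, for trees of height `n` when `P`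
contains all vertices of length at most `n + 1`. -/
theorem tree_in_cspan (m : PotentialModel) (P : Set (List ℕ))
    (hP : ∀ a v, a :: v ∈ P → v ∈ P) (hnilP : [] ∈ P) (n : ℕ)
    (hn : ∀ v : List ℕ, v.length ≤ n + 1 → v ∈ P) :
    ∃ z : List ℕ → cspan m P, 1 ≤ ‖z []‖ ∧ (∀ v, v.length ≤ n → ‖z v‖ ≤ 1) ∧
      (∀ v, v.length < n → ∀ i, 1 ≤ ‖z (i :: v) - z v‖) ∧
      (∀ v, v.length < n → ∀ A : Finset ℕ,
        ‖∑ i ∈ A, (z (i :: v) - z v)‖ ≤ 1 * Real.sqrt A.card) := by
  classical
  have hmem : ∀ v : List ℕ, v.length ≤ n → branchVec m (v ++ [0]) ∈ cspan m P := by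
    intro v hv
    exact branchVec_mem_cspan m P hP hnilP _ (hn _ (by simp; omega))
  let z : List ℕ → cspan m P := fun v =>
    if hv : v.length ≤ n then ⟨branchVec m (v ++ [0]), hmem v hv⟩ else 0
  have hz : ∀ v (hv : v.length ≤ n), (z v : lp (fun _ : PotentialTest m => ℝ) ⊤)
      = branchVec m (v ++ [0]) := by
    intro v hv
    simp only [z, dif_pos hv]
  have hdiff : ∀ v, v.length < n → ∀ i,
      ((z (i :: v) - z v : cspan m P) : lp (fun _ : PotentialTest m => ℝ) ⊤)
        = coordVector m (i :: (v ++ [0])) := by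
    intro v hv i
    rw [Submodule.coe_sub, hz v (by omega), hz (i :: v) (by simp; omega)]
    rw [List.cons_append, branchVec_cons]
    abel
  refine ⟨z, ?_, ?_, ?_, ?_⟩
  · change 1 ≤ ‖(z [] : lp (fun _ : PotentialTest m => ℝ) ⊤)‖
    rw [hz [] (by simp)]
    exact one_le_norm_branchVec m _ (by simp)
  · intro v hv
    change ‖(z v : lp (fun _ : PotentialTest m => ℝ) ⊤)‖ ≤ 1
    rw [hz v hv]
    exact norm_branchVec_le m _
  · intro v hv i
    change 1 ≤ ‖((z (i :: v) - z v : cspan m P) : lp (fun _ : PotentialTest m => ℝ) ⊤)‖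
    rw [hdiff v hv i]
    exact one_le_norm_coordVector m _ (by simp)
  · intro v hv A
    change ‖((∑ i ∈ A, (z (i :: v) - z v) : cspan m P) :
      lp (fun _ : PotentialTest m => ℝ) ⊤)‖ ≤ 1 * Real.sqrt A.card
    rw [Submodule.coe_sum, one_mul]
    have : ∑ i ∈ A, ((z (i :: v) - z v : cspan m P) : lp (fun _ : PotentialTest m => ℝ) ⊤)
        = ∑ i ∈ A, coordVector m (i :: (v ++ [0])) :=
      Finset.sum_congr rfl (fun i _ => hdiff v hv i)
    rw [this]
    exact norm_sum_siblings_le m _ A

/-- separability of `cspan m P` -/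
theorem separable_cspan (m : PotentialModel) (P : Set (List ℕ)) :
    TopologicalSpace.SeparableSpace (cspan m P) := by
  have h1 : TopologicalSpace.IsSeparable (coordVector m '' P) :=
    ((Set.to_countable P).image _).isSeparable
  have h2 : TopologicalSpace.IsSeparable ((cspan m P : Submodule ℝ _) :
      Set (lp (fun _ : PotentialTest m => ℝ) ⊤)) := by
    unfold cspan
    rw [Submodule.topologicalClosure_coe]
    exact h1.span.closure
  exact h2.separableSpace

/-- infinite-dimensionality of `cspan m P` when `P` contains all vertices of length one. -/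
theorem not_finiteDimensional_cspan (m : PotentialModel) (P : Set (List ℕ))
    (h1 : ∀ i : ℕ, [i] ∈ P) : ¬ FiniteDimensional ℝ (cspan m P) := by
  let d : ℕ → cspan m P := fun i => ⟨coordVector m [i], coordVector_mem_cspan m P _ (h1 i)⟩
  apply not_finiteDimensional_of_cesaro d 1 1 one_pos
  · intro i
    change 1 ≤ ‖coordVector m [i]‖
    exact one_le_norm_coordVector m _ (by simp)
  · intro A
    change ‖((∑ i ∈ A, d i : cspan m P) : lp (fun _ : PotentialTest m => ℝ) ⊤)‖
      ≤ 1 * Real.sqrt A.card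
    rw [Submodule.coe_sum, one_mul]
    exact norm_sum_siblings_le m [] A

/-! ### the model spaces -/

theorem separableInfiniteDim_model (m : PotentialModel) :
    (modelBanach m).IsSeparableInfiniteDim := by
  have key : ∀ (M : Submodule ℝ (lp (fun _ : PotentialTest m => ℝ) ⊤)),
      M = cspan m Set.univ →
      TopologicalSpace.SeparableSpace M ∧ ¬ FiniteDimensional ℝ M := by
    intro M hM
    subst hM
    exact ⟨separable_cspan m _, not_finiteDimensional_cspan m _ (fun _ => Set.mem_univ _)⟩
  exact key (modelSpace m) (modelSpace_eq_cspan m)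

theorem not_auc_model (m : PotentialModel) :
    ∀ N : (modelBanach m).X → ℝ, (modelBanach m).IsEquivNorm N → ¬ (modelBanach m).IsAUC N := by
  have key : ∀ (M : Submodule ℝ (lp (fun _ : PotentialTest m => ℝ) ⊤)),
      M = cspan m Set.univ →
      ∀ n : ℕ, ∃ z : List ℕ → M, 1 ≤ ‖z []‖ ∧ (∀ v, v.length ≤ n → ‖z v‖ ≤ 1) ∧
      (∀ v, v.length < n → ∀ i, 1 ≤ ‖z (i :: v) - z v‖) ∧
      (∀ v, v.length < n → ∀ A : Finset ℕ,
        ‖∑ i ∈ A, (z (i :: v) - z v)‖ ≤ 1 * Real.sqrt A.card) := by
    intro M hM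
    subst hM
    intro n
    exact tree_in_cspan m Set.univ (fun _ _ _ => Set.mem_univ _) (Set.mem_univ _) n
      (fun _ _ => Set.mem_univ _)
  exact not_auc_of_trees (modelBanach m) 1 1 1 one_pos (key (modelSpace m) (modelSpace_eq_cspan m))

end Crest.Agent.Helper5.TreePot
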