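import Mathlib

/-!
Row 125 / S0166 (helper5): the midpoint inequality is stable under `ℓ²`-sums.
-/

set_option autoImplicit false

namespace Crest.Agent.Helper5.Witness

open Filter Topology

/-- finite `ℓ²` combination of componentwise midpoint inequalities -/
lemma l2_combine (M : ℕ) (a b u w e : ℕ → ℝ)
    (ha : ∀ n, 0 ≤ a n) (hb : ∀ n, 0 ≤ b n) (hu : ∀ n, 0 ≤ u n) (hw : ∀ n, 0 ≤ w n)
    (he : ∀ n, 0 ≤ e n)
    (hcomp : ∀ n < M, ∀ α' β' : ℝ, 0 ≤ α' → α' ≤ 1 → 0 ≤ β' → α' ^ 2 + β' ^ 2 ≤ 1 →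
       2 * α' * a n + β' * b n ≤ u n + w n + e n)
    (α β A B : ℝ) (hα : 0 ≤ α) (hβ : 0 ≤ β) (hab : α ^ 2 + β ^ 2 ≤ 1) (hA : 0 < A) (hB : 0 < B)
    (hAsum : ∑ n ∈ Finset.range M, a n ^ 2 ≤ A ^ 2)
    (hBsum : ∑ n ∈ Finset.range M, b n ^ 2 ≤ B ^ 2) :
    2 * α / A * ∑ n ∈ Finset.range M, a n ^ 2 + β / B * ∑ n ∈ Finset.range M, b n ^ 2
      ≤ Real.sqrt (∑ n ∈ Finset.range M, u n ^ 2) + Real.sqrt (∑ n ∈ Finset.range M, w n ^ 2)
        + Real.sqrt (∑ n ∈ Finset.range M, e n ^ 2) := by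
  obtain ⟨p, hp⟩ : ∃ p : ℕ → ℝ, ∀ n, p n = α * a n / A := ⟨_, fun _ => rfl⟩
  obtain ⟨q, hq⟩ : ∃ q : ℕ → ℝ, ∀ n, q n = β * b n / B := ⟨_, fun _ => rfl⟩
  obtain ⟨c, hc⟩ : ∃ c : ℕ → ℝ, ∀ n, c n = Real.sqrt (p n ^ 2 + q n ^ 2) := ⟨_, fun _ => rfl⟩
  have hp0 : ∀ n, 0 ≤ p n := fun n => by rw [hp]; have := ha n; positivity
  have hq0 : ∀ n, 0 ≤ q n := fun n => by rw [hq]; have := hb n; positivity
  have hc0 : ∀ n, 0 ≤ c n := fun n => by rw [hc]; exact Real.sqrt_nonneg _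
  have hcsq : ∀ n, c n ^ 2 = p n ^ 2 + q n ^ 2 := fun n => by
    rw [hc]; exact Real.sq_sqrt (by positivity)
  -- termwise inequality
  have hterm : ∀ n ∈ Finset.range M,
      2 * p n * a n + q n * b n ≤ c n * u n + c n * w n + c n * e n := by
    intro n hn
    rw [Finset.mem_range] at hn
    rcases (hc0 n).eq_or_lt with h0 | hpos
    · have hz : p n ^ 2 + q n ^ 2 = 0 := by rw [← hcsq n, ← h0]; ring
      have hpz : p n = 0 := by nlinarith [sq_nonneg (p n), sq_nonneg (q n)]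
      have hqz : q n = 0 := by nlinarith [sq_nonneg (p n), sq_nonneg (q n)]
      rw [hpz, hqz, ← h0]; simp
    · have hpc : p n ≤ c n := by
        rw [hc]
        apply Real.le_sqrt_of_sq_le
        nlinarith [sq_nonneg (q n)]
      have h1 := hcomp n hn (p n / c n) (q n / c n) (div_nonneg (hp0 n) hpos.le)
        (by rw [div_le_one hpos]; exact hpc) (div_nonneg (hq0 n) hpos.le)
        (by rw [div_pow, div_pow, ← add_div, ← hcsq n, div_self (by positivity)])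
      have h2 : c n * (2 * (p n / c n) * a n + q n / c n * b n) = 2 * p n * a n + q n * b n := by
        field_simp
      have h3 := mul_le_mul_of_nonneg_left h1 hpos.le
      rw [h2] at h3
      linarith
  have hsum := Finset.sum_le_sum hterm
  rw [Finset.sum_add_distrib, Finset.sum_add_distrib, Finset.sum_add_distrib] at hsum
  -- the left side
  have hL : ∑ n ∈ Finset.range M, 2 * p n * a n + ∑ n ∈ Finset.range M, q n * b n
      = 2 * α / A * ∑ n ∈ Finset.range M, a n ^ 2 + β / B * ∑ n ∈ Finset.range M, b n ^ 2 := by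
    rw [Finset.mul_sum, Finset.mul_sum]
    congr 1
    · apply Finset.sum_congr rfl
      intro n _
      rw [hp]; field_simp
    · apply Finset.sum_congr rfl
      intro n _
      rw [hq]; field_simp
  -- sum of c^2
  have hcs : ∑ n ∈ Finset.range M, c n ^ 2 ≤ 1 := by
    have e1 : ∑ n ∈ Finset.range M, c n ^ 2
        = α ^ 2 / A ^ 2 * ∑ n ∈ Finset.range M, a n ^ 2
          + β ^ 2 / B ^ 2 * ∑ n ∈ Finset.range M, b n ^ 2 := by
      rw [Finset.mul_sum, Finset.mul_sum, ← Finset.sum_add_distrib]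
      apply Finset.sum_congr rfl
      intro n _
      rw [hcsq n, hp, hq]; field_simp
    rw [e1]
    have h1 : α ^ 2 / A ^ 2 * ∑ n ∈ Finset.range M, a n ^ 2 ≤ α ^ 2 := by
      rw [div_mul_eq_mul_div, div_le_iff₀ (by positivity)]
      exact mul_le_mul_of_nonneg_left hAsum (sq_nonneg α)
    have h2 : β ^ 2 / B ^ 2 * ∑ n ∈ Finset.range M, b n ^ 2 ≤ β ^ 2 := by
      rw [div_mul_eq_mul_div, div_le_iff₀ (by positivity)]
      exact mul_le_mul_of_nonneg_left hBsum (sq_nonneg β)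
    linarith
  have hcs' : Real.sqrt (∑ n ∈ Finset.range M, c n ^ 2) ≤ 1 := by
    rw [← Real.sqrt_one]; exact Real.sqrt_le_sqrt hcs
  have cs : ∀ g : ℕ → ℝ, ∑ n ∈ Finset.range M, c n * g n
      ≤ Real.sqrt (∑ n ∈ Finset.range M, g n ^ 2) := by
    intro g
    calc ∑ n ∈ Finset.range M, c n * g n
        ≤ Real.sqrt (∑ n ∈ Finset.range M, c n ^ 2) * Real.sqrt (∑ n ∈ Finset.range M, g n ^ 2) :=
          Real.sum_mul_le_sqrt_mul_sqrt _ _ _
      _ ≤ 1 * Real.sqrt (∑ n ∈ Finset.range M, g n ^ 2) :=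
          mul_le_mul_of_nonneg_right hcs' (Real.sqrt_nonneg _)
      _ = _ := one_mul _
  rw [← hL]
  linarith [cs u, cs w, cs e]

section LpTwo

open scoped ENNReal

variable {F : ℕ → Type} [∀ n, NormedAddCommGroup (F n)] [∀ n, NormedSpace ℝ (F n)]

lemma hasSum_sq (z : lp F 2) : HasSum (fun n => ‖z n‖ ^ 2) (‖z‖ ^ 2) := by
  have h := lp.hasSum_norm (p := 2) (by simp) z
  simpa [Real.rpow_two] using h

lemma sum_sq_le (z : lp F 2) (s : Finset ℕ) : ∑ n ∈ s, ‖z n‖ ^ 2 ≤ ‖z‖ ^ 2 :=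
  sum_le_hasSum s (fun _ _ => sq_nonneg _) (hasSum_sq z)

lemma sqrt_sum_sq_le (z : lp F 2) (s : Finset ℕ) : Real.sqrt (∑ n ∈ s, ‖z n‖ ^ 2) ≤ ‖z‖ := by
  rw [← Real.sqrt_sq (norm_nonneg z)]
  exact Real.sqrt_le_sqrt (sum_sq_le z s)

/-- elements of the `ℓ²`-sum whose first `N` components lie in given subspaces -/
def headSub (S : ∀ n, Submodule ℝ (F n)) (N : ℕ) : Submodule ℝ (lp F 2) where
  carrier := {y | ∀ n < N, y n ∈ S n}
  add_mem' := fun {a b} ha hb n hn => (S n).add_mem (ha n hn) (hb n hn)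
  zero_mem' := fun n _ => (S n).zero_mem
  smul_mem' := fun c y hy n hn => (S n).smul_mem c (hy n hn)

lemma mem_headSub (S : ∀ n, Submodule ℝ (F n)) (N : ℕ) (y : lp F 2) :
    y ∈ headSub S N ↔ ∀ n < N, y n ∈ S n := Iff.rfl

lemma isClosed_headSub (S : ∀ n, Submodule ℝ (F n)) (hS : ∀ n, IsClosed (S n : Set (F n)))
    (N : ℕ) : IsClosed (headSub S N : Set (lp F 2)) := by
  have : (headSub S N : Set (lp F 2))
      = ⋂ n ∈ Finset.range N, (fun y : lp F 2 => lp.evalCLM ℝ F 2 n y) ⁻¹' (S n : Set (F n)) := by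
    ext y
    simp only [SetLike.mem_coe, mem_headSub, Set.mem_iInter, Finset.mem_range, Set.mem_preimage]
    rfl
  rw [this]
  exact isClosed_biInter fun n _ => (hS n).preimage (lp.evalCLM ℝ F 2 n).continuous

lemma finiteDimensional_quot_headSub (S : ∀ n, Submodule ℝ (F n))
    (hS : ∀ n, FiniteDimensional ℝ (F n ⧸ S n)) (N : ℕ) :
    FiniteDimensional ℝ (lp F 2 ⧸ headSub S N) := by
  haveI : ∀ n : Fin N, FiniteDimensional ℝ (F n ⧸ S n) := fun n => hS n
  let L : lp F 2 →ₗ[ℝ] (∀ n : Fin N, F n ⧸ S n) :=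
    LinearMap.pi fun n => (S n).mkQ.comp (lp.evalCLM ℝ F 2 n).toLinearMap
  have hker : headSub S N = LinearMap.ker L := by
    ext y
    rw [mem_headSub, LinearMap.mem_ker]
    constructor
    · intro h
      funext n
      change Submodule.Quotient.mk (y n) = 0
      rw [Submodule.Quotient.mk_eq_zero]
      exact h n n.2
    · intro h n hn
      have := congrFun h ⟨n, hn⟩
      change Submodule.Quotient.mk (y n) = 0 at this
      rwa [Submodule.Quotient.mk_eq_zero] at this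
  rw [hker]
  exact Module.Finite.equiv (LinearMap.quotKerEquivRange L).symm

/-- the midpoint inequality passes to `ℓ²`-sums -/
theorem lp_two_midpoint
    (hF : ∀ n (x : F n) (η : ℝ), 0 < η → ∃ S : Submodule ℝ (F n), IsClosed (S : Set (F n)) ∧
      FiniteDimensional ℝ (F n ⧸ S) ∧ ∀ y ∈ S, ∀ α β : ℝ, 0 ≤ α → α ≤ 1 → 0 ≤ β →
        α ^ 2 + β ^ 2 ≤ 1 → α * ‖x‖ + β * ‖y‖ / 2 - η ≤ (‖x + y‖ + ‖x - y‖) / 2)
    (x : lp F 2) (hx : x ≠ 0) (η : ℝ) (hη : 0 < η) :
    ∃ S : Submodule ℝ (lp F 2), IsClosed (S : Set (lp F 2)) ∧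
      FiniteDimensional ℝ (lp F 2 ⧸ S) ∧
      ∀ y ∈ S, ∀ α β : ℝ, 0 ≤ α → α ≤ 1 → 0 ≤ β → α ^ 2 + β ^ 2 ≤ 1 →
        α * ‖x‖ + β * ‖y‖ / 2 - η ≤ (‖x + y‖ + ‖x - y‖) / 2 := by
  have hA : 0 < ‖x‖ := norm_pos_iff.2 hx
  have htx := (hasSum_sq x).tendsto_sum_nat
  obtain ⟨N, hN⟩ : ∃ N : ℕ, ‖x‖ ^ 2 - η ^ 2 / 2 < ∑ n ∈ Finset.range N, ‖x n‖ ^ 2 :=
    (htx.eventually_const_lt (by nlinarith [sq_pos_of_pos hη])).exists
  set η' : ℝ := η / (2 * (N + 1)) with hη'def
  have hη' : 0 < η' := by positivity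
  choose S hScl hSfd hS using fun n => hF n (x n) η' hη'
  refine ⟨headSub S N, isClosed_headSub S hScl N, finiteDimensional_quot_headSub S hSfd N, ?_⟩
  intro y hy α β hα hα1 hβ hab
  by_cases hy0 : y = 0
  · subst hy0
    simp only [norm_zero, mul_zero, zero_div, add_zero, sub_zero]
    nlinarith
  have hB : 0 < ‖y‖ := norm_pos_iff.2 hy0
  obtain ⟨e, he⟩ : ∃ e : ℕ → ℝ, ∀ n, e n = if n < N then 2 * η' else 2 * ‖x n‖ :=
    ⟨_, fun _ => rfl⟩
  have he0 : ∀ n, 0 ≤ e n := by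
    intro n
    rw [he]
    split_ifs <;> positivity
  have hcomp : ∀ n, ∀ α' β' : ℝ, 0 ≤ α' → α' ≤ 1 → 0 ≤ β' → α' ^ 2 + β' ^ 2 ≤ 1 →
      2 * α' * ‖x n‖ + β' * ‖y n‖ ≤ ‖(x + y) n‖ + ‖(x - y) n‖ + e n := by
    intro n α' β' hα' hα1' hβ' hab'
    have e1 : (x + y) n = x n + y n := rfl
    have e2 : (x - y) n = x n - y n := rfl
    rw [e1, e2, he]
    by_cases hn : n < N
    · rw [if_pos hn]
      have := hS n (y n) (hy n hn) α' β' hα' hα1' hβ' hab'
      linarith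
    · rw [if_neg hn]
      have h2 : ‖(2 : ℝ) • y n‖ ≤ ‖x n + y n‖ + ‖x n - y n‖ := by
        have := norm_sub_le (x n + y n) (x n - y n)
        have e3 : x n + y n - (x n - y n) = (2 : ℝ) • y n := by rw [two_smul]; abel
        rwa [e3] at this
      rw [norm_smul, Real.norm_eq_abs, abs_of_pos (by norm_num : (0 : ℝ) < 2)] at h2
      have hβ1 : β' ≤ 1 := by nlinarith [sq_nonneg α']
      have h3 : β' * ‖y n‖ ≤ ‖y n‖ := by
        have := mul_le_mul_of_nonneg_right hβ1 (norm_nonneg (y n))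
        simpa using this
      have h4 : 2 * α' * ‖x n‖ ≤ 2 * ‖x n‖ := by
        have := mul_le_mul_of_nonneg_right hα1' (norm_nonneg (x n))
        nlinarith
      linarith [norm_nonneg (y n), norm_nonneg (x n + y n), norm_nonneg (x n - y n)]
  have key : ∀ M, N ≤ M →
      2 * α / ‖x‖ * ∑ n ∈ Finset.range M, ‖x n‖ ^ 2 + β / ‖y‖ * ∑ n ∈ Finset.range M, ‖y n‖ ^ 2
        ≤ ‖x + y‖ + ‖x - y‖ + 2 * η := by
    intro M hNM
    have h1 := l2_combine M (fun n => ‖x n‖) (fun n => ‖y n‖) (fun n => ‖(x + y) n‖)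
      (fun n => ‖(x - y) n‖) e (fun n => norm_nonneg _) (fun n => norm_nonneg _)
      (fun n => norm_nonneg _) (fun n => norm_nonneg _) he0
      (fun n _ => hcomp n) α β ‖x‖ ‖y‖ hα hβ hab hA hB (sum_sq_le x _) (sum_sq_le y _)
    have h2 := sqrt_sum_sq_le (x + y) (Finset.range M)
    have h3 := sqrt_sum_sq_le (x - y) (Finset.range M)
    have h4 : Real.sqrt (∑ n ∈ Finset.range M, e n ^ 2) ≤ 2 * η := by
      rw [show 2 * η = Real.sqrt ((2 * η) ^ 2) from (Real.sqrt_sq (by positivity)).symm]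
      apply Real.sqrt_le_sqrt
      have hsplit : ∑ n ∈ Finset.range M, e n ^ 2
          = ∑ n ∈ (Finset.range M).filter (fun n => n < N), (2 * η') ^ 2
            + ∑ n ∈ (Finset.range M).filter (fun n => ¬ n < N), (2 * ‖x n‖) ^ 2 := by
        rw [← Finset.sum_filter_add_sum_filter_not (Finset.range M) (fun n => n < N)]
        congr 1
        · apply Finset.sum_congr rfl
          intro n hn
          rw [Finset.mem_filter] at hn
          rw [he, if_pos hn.2]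
        · apply Finset.sum_congr rfl
          intro n hn
          rw [Finset.mem_filter] at hn
          rw [he, if_neg hn.2]
      have hfilt : (Finset.range M).filter (fun n => n < N) = Finset.range N := by
        ext n
        simp only [Finset.mem_filter, Finset.mem_range]
        constructor
        · exact fun h => h.2
        · exact fun h => ⟨lt_of_lt_of_le h hNM, h⟩
      have hfirst : ∑ n ∈ (Finset.range M).filter (fun n => n < N), (2 * η') ^ 2 ≤ η ^ 2 := by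
        rw [hfilt, Finset.sum_const, Finset.card_range, nsmul_eq_mul, hη'def]
        have hN1 : (0 : ℝ) < (N : ℝ) + 1 := by positivity
        have e5 : (N : ℝ) * (2 * (η / (2 * ((N : ℝ) + 1)))) ^ 2
            = η ^ 2 * ((N : ℝ) / ((N : ℝ) + 1) ^ 2) := by
          field_simp
        rw [e5]
        have h6 : (N : ℝ) / ((N : ℝ) + 1) ^ 2 ≤ 1 := by
          rw [div_le_one (by positivity)]
          nlinarith [(Nat.cast_nonneg N : (0 : ℝ) ≤ N)]
        nlinarith [sq_nonneg η]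
      have hsecond : ∑ n ∈ (Finset.range M).filter (fun n => ¬ n < N), (2 * ‖x n‖) ^ 2
          ≤ 2 * η ^ 2 := by
        have e6 : ∑ n ∈ (Finset.range M).filter (fun n => ¬ n < N), (2 * ‖x n‖) ^ 2
            = 4 * (∑ n ∈ Finset.range M, ‖x n‖ ^ 2 - ∑ n ∈ Finset.range N, ‖x n‖ ^ 2) := by
          rw [← Finset.sum_filter_add_sum_filter_not (Finset.range M) (fun n => n < N)
            (fun n => ‖x n‖ ^ 2), hfilt]
          rw [add_sub_cancel_left, Finset.mul_sum]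
          apply Finset.sum_congr rfl
          intro n _
          ring
        rw [e6]
        have := sum_sq_le x (Finset.range M)
        linarith
      rw [hsplit]
      nlinarith [sq_nonneg η]
    linarith
  have htx' : Tendsto (fun M => 2 * α / ‖x‖ * ∑ n ∈ Finset.range M, ‖x n‖ ^ 2
      + β / ‖y‖ * ∑ n ∈ Finset.range M, ‖y n‖ ^ 2) atTop
      (𝓝 (2 * α / ‖x‖ * ‖x‖ ^ 2 + β / ‖y‖ * ‖y‖ ^ 2)) :=
    (htx.const_mul _).add (((hasSum_sq y).tendsto_sum_nat).const_mul _)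
  have hlim := le_of_tendsto htx' ((eventually_ge_atTop N).mono key)
  have e7 : 2 * α / ‖x‖ * ‖x‖ ^ 2 + β / ‖y‖ * ‖y‖ ^ 2 = 2 * α * ‖x‖ + β * ‖y‖ := by
    field_simp
  rw [e7] at hlim
  linarith

end LpTwo

end Crest.Agent.Helper5.Witness
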