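import Mathlib
import Crest.Agent.Row125.Defs
import Crest.Agent.Helper5.TreePotD
import Crest.Agent.Helper5.WitnessA

/-!
Row 125 / S0166 (helper5): properties of the witness `ℓ²`-sum of the finite-height global models:
midpoint modulus, separability, infinite dimension, no equivalent AUC norm.
-/

set_option autoImplicit false

namespace Crest.Agent.Helper5.Witness

open Crest.AnalysisR Crest.AnalysisR.TreePotential Crest.Agent.Row125 Crest.Agent.Helper5.TreePot
open scoped ENNReal

/-- vertices of length at most `n` -/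
def lowSet (n : ℕ) : Set (List ℕ) := {s | s.length ≤ n}

lemma lowSet_cons (n : ℕ) : ∀ (a : ℕ) (v : List ℕ), a :: v ∈ lowSet n → v ∈ lowSet n := by
  intro a v h
  simp only [lowSet, Set.mem_ofPred_eq, List.length_cons] at h ⊢
  omega

lemma nil_mem_lowSet (n : ℕ) : [] ∈ lowSet n := by simp [lowSet]

lemma G_eq (n : ℕ) : G n = cspan .global (lowSet n) := rfl

/-- componentwise midpoint inequality in `G n` -/
theorem midpoint_G (n : ℕ) (x : G n) (η : ℝ) (hη : 0 < η) :
    ∃ S : Submodule ℝ (G n), IsClosed (S : Set (G n)) ∧ FiniteDimensional ℝ (G n ⧸ S) ∧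
      ∀ y ∈ S, ∀ α β : ℝ, 0 ≤ α → α ≤ 1 → 0 ≤ β → α ^ 2 + β ^ 2 ≤ 1 →
        α * ‖x‖ + β * ‖y‖ / 2 - η ≤ (‖x + y‖ + ‖x - y‖) / 2 :=
  midpoint_core .global (lowSet n) (lowSet_cons n) (nil_mem_lowSet n) x η hη

theorem midpoint_witness_core (x : WitnessSpace) (hx : ‖x‖ = 1) (t : ℝ) (ht : 0 < t) (η : ℝ)
    (hη : 0 < η) :
    ∃ S : Submodule ℝ WitnessSpace, IsClosed (S : Set WitnessSpace) ∧
      FiniteDimensional ℝ (WitnessSpace ⧸ S) ∧
      ∀ y ∈ S, ‖y‖ = 1 → Real.sqrt (1 + t ^ 2 / 4) - 1 - η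
        ≤ (‖x + t • y‖ + ‖x - t • y‖) / 2 - 1 := by
  have hx0 : x ≠ 0 := by
    intro h
    rw [h, norm_zero] at hx
    exact zero_ne_one hx
  obtain ⟨S, hScl, hSfd, hS⟩ := lp_two_midpoint (F := fun n => G n) midpoint_G x hx0 η hη
  refine ⟨S, hScl, hSfd, fun y hy hy1 => ?_⟩
  obtain ⟨α, β, hα, hα1, hβ, hab, hval⟩ := weights t ht
  have h := hS (t • y) (S.smul_mem t hy) α β hα hα1 hβ hab
  rw [hx, norm_smul, hy1, Real.norm_eq_abs, abs_of_pos ht] at h
  have : α * 1 + β * (t * 1) / 2 = Real.sqrt (1 + t ^ 2 / 4) := by rw [← hval]; ring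
  linarith

/-- the averaged midpoint modulus of the witness is at least `√(1 + t²/4) - 1`. -/
theorem midpoint_witness (t : ℝ) (ht : 0 < t) :
    witness.MidpointModulusGE witness.norm t (Real.sqrt (1 + t ^ 2 / 4) - 1) := by
  intro x hx η hη
  obtain ⟨S, hScl, hSfd, hS⟩ := midpoint_witness_core x hx t ht η hη
  exact ⟨(S : Set WitnessSpace), ⟨S, rfl, hScl, hSfd⟩, hS⟩

lemma avg_le_max (a b : ℝ) : (a + b) / 2 ≤ max a b := by
  rcases le_total a b with h | h
  · rw [max_eq_right h]; linarith
  · rw [max_eq_left h]; linarith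

/-- the maximum-based midpoint modulus of the witness -/
theorem maxMidpoint_witness (t : ℝ) (ht : 0 < t) :
    witness.MaxMidpointModulusGE witness.norm t (Real.sqrt (1 + t ^ 2 / 4) - 1) := by
  intro x hx η hη
  obtain ⟨F, hF, h⟩ := midpoint_witness t ht x hx η hη
  exact ⟨F, hF, fun y hy hy1 =>
    le_trans (h y hy hy1) (sub_le_sub_right (avg_le_max _ _) 1)⟩

/-! ### separability and infinite dimension -/

theorem separable_lp_two {F : ℕ → Type} [∀ n, NormedAddCommGroup (F n)]
    [∀ n, NormedSpace ℝ (F n)] [∀ n, TopologicalSpace.SeparableSpace (F n)] :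
    TopologicalSpace.SeparableSpace (lp F 2) := by
  have h1 : ∀ n, TopologicalSpace.IsSeparable (Set.range (lp.single (E := F) 2 n)) :=
    fun n => TopologicalSpace.isSeparable_range (lp.isometry_single n).continuous
  have h2 : TopologicalSpace.IsSeparable (⋃ n, Set.range (lp.single (E := F) 2 n)) :=
    TopologicalSpace.IsSeparable.iUnion h1
  have h3 := (h2.span (R := ℝ)).closure
  have h4 : (Set.univ : Set (lp F 2)) ⊆ closure
      ((Submodule.span ℝ (⋃ n, Set.range (lp.single (E := F) 2 n)) : Submodule ℝ (lp F 2)) :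
        Set (lp F 2)) := by
    intro x _
    have hs := lp.hasSum_single (p := 2) (by simp) x
    apply mem_closure_of_tendsto hs
    apply Filter.Eventually.of_forall
    intro s
    apply Submodule.sum_mem
    intro i _
    exact Submodule.subset_span (Set.mem_iUnion.2 ⟨i, ⟨x i, rfl⟩⟩)
  exact TopologicalSpace.isSeparable_univ_iff.1 (h3.mono h4)

theorem separableInfiniteDim_witness : witness.IsSeparableInfiniteDim := by
  constructor
  · haveI : ∀ n, TopologicalSpace.SeparableSpace (G n) :=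
      fun n => separable_cspan .global (lowSet n)
    exact separable_lp_two (F := fun n => G n)
  · intro hfin
    have h1 : ¬ FiniteDimensional ℝ (G 1) :=
      not_finiteDimensional_cspan .global (lowSet 1) (fun i => by simp [lowSet])
    apply h1
    haveI : FiniteDimensional ℝ WitnessSpace := hfin
    have hinj : Function.Injective (lp.lsingle (𝕜 := ℝ) (E := fun n => G n) 2 1) := by
      change Function.Injective (lp.single (E := fun n => G n) 2 1)
      exact (lp.isometry_single (E := fun n => G n) (p := 2) 1).injective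
    exact FiniteDimensional.of_injective _ hinj

/-! ### no equivalent AUC norm -/

theorem tree_in_G (n : ℕ) :
    ∃ z : List ℕ → G (n + 1), 1 ≤ ‖z []‖ ∧ (∀ v, v.length ≤ n → ‖z v‖ ≤ 1) ∧
      (∀ v, v.length < n → ∀ i, 1 ≤ ‖z (i :: v) - z v‖) ∧
      (∀ v, v.length < n → ∀ A : Finset ℕ,
        ‖∑ i ∈ A, (z (i :: v) - z v)‖ ≤ 1 * Real.sqrt A.card) :=
  tree_in_cspan .global (lowSet (n + 1)) (lowSet_cons _) (nil_mem_lowSet _) n (fun _ hv => hv)

theorem not_auc_witness :
    ∀ N : witness.X → ℝ, witness.IsEquivNorm N → ¬ witness.IsAUC N := by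
  apply Crest.Agent.Helper5.Row125.not_auc_of_trees witness 1 1 1 one_pos
  intro n
  obtain ⟨z, hz0, hzB, hzd, hzC⟩ := tree_in_G n
  have hp : (0 : ℝ≥0∞) < 2 := by norm_num
  refine ⟨fun v => lp.single (E := fun n => G n) 2 (n + 1) (z v), ?_, ?_, ?_, ?_⟩
  · change 1 ≤ ‖lp.single (E := fun n => G n) 2 (n + 1) (z [])‖
    rw [lp.norm_single hp]
    exact hz0
  · intro v hv
    change ‖lp.single (E := fun n => G n) 2 (n + 1) (z v)‖ ≤ 1
    rw [lp.norm_single hp]
    exact hzB v hv
  · intro v hv i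
    change 1 ≤ ‖lp.single (E := fun n => G n) 2 (n + 1) (z (i :: v))
      - lp.single (E := fun n => G n) 2 (n + 1) (z v)‖
    rw [← lp.single_sub, lp.norm_single hp]
    exact hzd v hv i
  · intro v hv A
    change ‖∑ i ∈ A, (lp.single (E := fun n => G n) 2 (n + 1) (z (i :: v))
      - lp.single (E := fun n => G n) 2 (n + 1) (z v))‖ ≤ 1 * Real.sqrt A.card
    have e : ∑ i ∈ A, (lp.single (E := fun n => G n) 2 (n + 1) (z (i :: v))
        - lp.single (E := fun n => G n) 2 (n + 1) (z v))
        = lp.single (E := fun n => G n) 2 (n + 1) (∑ i ∈ A, (z (i :: v) - z v)) := by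
      have := map_sum (lp.singleAddMonoidHom (E := fun n => G n) 2 (n + 1))
        (fun i => z (i :: v) - z v) A
      rw [show lp.single (E := fun n => G n) 2 (n + 1) (∑ i ∈ A, (z (i :: v) - z v))
        = lp.singleAddMonoidHom (E := fun n => G n) 2 (n + 1) (∑ i ∈ A, (z (i :: v) - z v))
        from rfl, this]
      apply Finset.sum_congr rfl
      intro i _
      exact (lp.single_sub 2 (n + 1) _ _).symm
    rw [e, lp.norm_single hp]
    exact hzC v hv A

end Crest.Agent.Helper5.Witness
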