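import Mathlib
import Crest.Prelude.Def_Diamond
import Crest.Agent.Row125.Defs
import Crest.Agent.Helper5.WitnessB
import Crest.Agent.Helper2.ReflexiveRow125
import Crest.Agent.Helper9.Diamond

/-!
Row 125 / S0166 (helper5): assembly of the statement from the witness package, helper2's
reflexivity of `ℓ²`-sums and helper9's diamond theorem, given reflexivity of the blocks `G n`.
-/

set_option autoImplicit false

namespace Crest.Agent.Helper5.Witness

open Crest.AnalysisR Crest.Agent.Row125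

lemma midpointGE_mono (E : RealBanach) (N : E.X → ℝ) (t c c' : ℝ) (hcc : c' ≤ c)
    (h : E.MidpointModulusGE N t c) : E.MidpointModulusGE N t c' := by
  intro x hx η hη
  obtain ⟨F, hF, hFy⟩ := h x hx η hη
  exact ⟨F, hF, fun y hy hy1 => le_trans (by linarith) (hFy y hy hy1)⟩

lemma sqrt_bound1 (t : ℝ) : Real.sqrt (1 + t ^ 2 / 12) - 1 ≤ Real.sqrt (1 + t ^ 2 / 4) - 1 := by
  have : Real.sqrt (1 + t ^ 2 / 12) ≤ Real.sqrt (1 + t ^ 2 / 4) :=
    Real.sqrt_le_sqrt (by nlinarith [sq_nonneg t])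
  linarith

lemma sqrt_bound2 (t : ℝ) :
    (Real.sqrt (1 + t ^ 2 / 4) - 1) / 2 ≤ Real.sqrt (1 + t ^ 2 / 4) - 1 := by
  have : 1 ≤ Real.sqrt (1 + t ^ 2 / 4) := by
    rw [← Real.sqrt_one]
    exact Real.sqrt_le_sqrt (by nlinarith [sq_nonneg t])
  linarith

/-- S0166, given reflexivity of the blocks `G n`. -/
theorem s0166_of (hG : ∀ n, Reflexive (G n)) :
    ∃ E : Crest.AnalysisR.RealBanach, E.IsSeparableInfiniteDim ∧ E.IsReflexive ∧
      (∀ t : ℝ, 0 < t → E.MidpointModulusGE E.norm t (Real.sqrt (1 + t ^ 2 / 12) - 1) ∧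
        E.MidpointModulusGE E.norm t ((Real.sqrt (1 + t ^ 2 / 4) - 1) / 2) ∧
        E.MaxMidpointModulusGE E.norm t (Real.sqrt (1 + t ^ 2 / 4) - 1)) ∧
      (∀ N : E.X → ℝ, E.IsEquivNorm N → ¬ E.IsAUC N) ∧
      ∀ (k : ℕ) (f : Crest.AnalysisR.DiamondVertex k → E.X) (D : ℝ),
        E.HasDistortionLE k f D → 1 + (k : ℝ) / 4 ≤ D ^ 2 :=
  ⟨witness, separableInfiniteDim_witness, Crest.Agent.Helper2.witness_isReflexive hG,
    fun t ht => ⟨midpointGE_mono witness witness.norm t _ _ (sqrt_bound1 t) (midpoint_witness t ht),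
      midpointGE_mono witness witness.norm t _ _ (sqrt_bound2 t) (midpoint_witness t ht),
      maxMidpoint_witness t ht⟩,
    not_auc_witness,
    Crest.Agent.Helper9.Diamond.realBanach_diamond witness (fun t ht => maxMidpoint_witness t ht)⟩

end Crest.Agent.Helper5.Witness
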