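import Mathlib
import Crest.Agent.Helper9.Area
import Crest.Agent.Helper9.Proj
import Crest.Agent.Helper4.R211Open

/-!
# Row 211 / S0329 from S0326 (helper5)

`s0329_of`: the statement of S0329, given the statement of S0326 as a black box.

A sheared cylinder `{(s, ξ) : ξ ∈ T + s g}` over a square `T = c + [0,1] a + [0,1] b` of the plane
is mapped by `(s, ξ) ↦ (s, ξ₀, h ξ₁)` onto the cylinder of `ℝ³` with axis `d = (1, g₀, h g₁)`
through the parallelogram `(0, ξ₀, h ξ₁)`, `ξ ∈ T`; its perpendicular base is the projection of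
that parallelogram to `d^⊥`, of area `h ‖a‖² / ‖d‖`, and is enlarged to a relatively open base by
`Helper4.R211.open_pgram_base`.
-/

set_option autoImplicit false
open MeasureTheory
open scoped ENNReal
open Crest.Agent.Helper9.Area

namespace Crest.Agent.Helper5.R211

/-- The statement of S0326 (as a proposition). -/
def S0326Stmt : Prop :=
  ∀ (D : Set (EuclideanSpace ℝ (Fin 2))) (_ : IsCompact D)
    (V : EuclideanSpace ℝ (Fin 2) → EuclideanSpace ℝ (Fin 2)) (U : Set (EuclideanSpace ℝ (Fin 2)))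
    (_ : IsOpen U) (_ : D ⊆ U) (_ : ContDiffOn ℝ 1 V U) (L h : ℝ) (_ : 0 < L) (_ : 0 < h)
    (_ : ∀ p ∈ D, LinearMap.trace ℝ _ (fderiv ℝ V p).toLinearMap = 0)
    (_ : ∀ p ∈ D, -(L ^ 2)⁻¹ < LinearMap.det (fderiv ℝ V p).toLinearMap ∧
      LinearMap.det (fderiv ℝ V p).toLinearMap ≤ 0)
    (ε : ℝ) (_ : 0 < ε),
    ∃ (k : ℕ) (c a b g : Fin k → EuclideanSpace ℝ (Fin 2)),
      (∀ i, a i ≠ 0 ∧ ‖b i‖ = ‖a i‖ ∧ inner ℝ (a i) (b i) = 0) ∧
      {z : ℝ × EuclideanSpace ℝ (Fin 2) | ∃ p ∈ D, abs z.1 ≤ L ∧ z.2 = p + z.1 • V p} ⊆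
        ⋃ i, {z : ℝ × EuclideanSpace ℝ (Fin 2) | ∃ x ∈ Set.Icc (0 : ℝ) 1, ∃ y ∈ Set.Icc (0 : ℝ) 1,
          z.2 = c i + x • a i + y • b i + z.1 • g i} ∧
      ∑ i, ‖a i‖ ^ 2 / Real.sqrt (1 + (g i 0) ^ 2 + h ^ 2 * (g i 1) ^ 2) ≤
        (∫ p in D, 1 / Real.sqrt (1 + (V p 0) ^ 2 + h ^ 2 * (V p 1) ^ 2)) + ε

/-- lift of a planar vector to the plane `x = 0` of `ℝ³`, second coordinate scaled by `h` -/
noncomputable def lift (h : ℝ) (v : E2) : E3 := !₂[0, v 0, h * v 1]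

/-- axis direction of the cylinder coming from the velocity `g` -/
noncomputable def axis (h : ℝ) (g : E2) : E3 := !₂[1, g 0, h * g 1]

@[simp] lemma lift_zero (h : ℝ) (v : E2) : lift h v 0 = 0 := by simp [lift]
@[simp] lemma lift_one (h : ℝ) (v : E2) : lift h v 1 = v 0 := by simp [lift]
@[simp] lemma lift_two (h : ℝ) (v : E2) : lift h v 2 = h * v 1 := by simp [lift]
@[simp] lemma axis_zero (h : ℝ) (g : E2) : axis h g 0 = 1 := by simp [axis]
@[simp] lemma axis_one (h : ℝ) (g : E2) : axis h g 1 = g 0 := by simp [axis]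
@[simp] lemma axis_two (h : ℝ) (g : E2) : axis h g 2 = h * g 1 := by simp [axis]

lemma norm_axis_sq (h : ℝ) (g : E2) : ‖axis h g‖ ^ 2 = 1 + (g 0) ^ 2 + h ^ 2 * (g 1) ^ 2 := by
  rw [norm_sq_coord]
  simp only [axis_zero, axis_one, axis_two]
  ring

lemma triple_lift (h : ℝ) (a b g : E2) :
    triple (lift h a) (lift h b) (axis h g) = h * (a 0 * b 1 - a 1 * b 0) := by
  unfold triple
  simp only [lift_zero, lift_one, lift_two, axis_zero, axis_one, axis_two]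
  ring

lemma triple_smul_right (a b u : E3) (k : ℝ) : triple a b (k • u) = k * triple a b u := by
  unfold triple
  simp only [PiLp.smul_apply, smul_eq_mul]
  ring

lemma inner_E2 (a b : E2) : inner ℝ a b = a 0 * b 0 + a 1 * b 1 := by
  simp only [PiLp.inner_apply, RCLike.inner_apply, conj_trivial, Fin.sum_univ_two]
  ring

lemma cross_sq (a b : E2) (hba : ‖b‖ = ‖a‖) (hab : inner ℝ a b = 0) :
    (a 0 * b 1 - a 1 * b 0) ^ 2 = (‖a‖ ^ 2) ^ 2 := by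
  have h1 : ‖a‖ ^ 2 = a 0 ^ 2 + a 1 ^ 2 := norm_sq_E2 a
  have h2 : ‖b‖ ^ 2 = b 0 ^ 2 + b 1 ^ 2 := norm_sq_E2 b
  rw [inner_E2] at hab
  rw [hba] at h2
  have : (a 0 * b 1 - a 1 * b 0) ^ 2 = (a 0 ^ 2 + a 1 ^ 2) * (b 0 ^ 2 + b 1 ^ 2)
      - (a 0 * b 0 + a 1 * b 1) ^ 2 := by ring
  rw [this, hab, ← h1, ← h2]
  ring

/-- the point of the ruled set, written in the oblique frame of the `i`-th cylinder -/
lemma point_eq (h x s t : ℝ) (p v c a b g : E2)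
    (hz : p + x • v = c + s • a + t • b + x • g) :
    (!₂[x, p 0 + x * v 0, h * (p 1 + x * v 1)] : E3)
      = lift h c + s • lift h a + t • lift h b + x • axis h g := by
  have h0 := congrArg (fun w : E2 => w 0) hz
  have h1 := congrArg (fun w : E2 => w 1) hz
  simp only [PiLp.add_apply, PiLp.smul_apply, smul_eq_mul] at h0 h1
  ext i
  fin_cases i
  · simp
  · simp [h0]
  · simp [h1]
    ring

/-- One sheared square cylinder gives one cylinder with a bounded relatively open base. -/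
theorem cyl_data (h : ℝ) (hh : 0 < h) (c a b g : E2) (ha : a ≠ 0) (hba : ‖b‖ = ‖a‖)
    (hab : inner ℝ a b = 0) (η : ℝ) (hη : 0 < η) :
    ∃ (u : E3) (B : Set E3), ‖u‖ = 1 ∧ Bornology.IsBounded B ∧
      (∃ O : Set E3, IsOpen O ∧ B = O ∩ {x | inner ℝ x u = 0}) ∧
      (∀ (x s t : ℝ), s ∈ Set.Icc (0 : ℝ) 1 → t ∈ Set.Icc (0 : ℝ) 1 →
        ∃ y ∈ B, ∃ τ : ℝ,
          lift h c + s • lift h a + t • lift h b + x • axis h g = y + τ • u) ∧
      (μHE[2] B).toReal ≤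
        (1 + η) * (h * (‖a‖ ^ 2 / Real.sqrt (1 + (g 0) ^ 2 + h ^ 2 * (g 1) ^ 2))) := by
  set d : E3 := axis h g with hd
  have hq : ‖d‖ ^ 2 = 1 + (g 0) ^ 2 + h ^ 2 * (g 1) ^ 2 := norm_axis_sq h g
  have hqpos : 0 < 1 + (g 0) ^ 2 + h ^ 2 * (g 1) ^ 2 := by positivity
  have hdpos : 0 < ‖d‖ := by
    by_contra hcon
    have : ‖d‖ = 0 := le_antisymm (not_lt.mp hcon) (norm_nonneg _)
    rw [this] at hq
    nlinarith
  have hdsqrt : Real.sqrt (1 + (g 0) ^ 2 + h ^ 2 * (g 1) ^ 2) = ‖d‖ := by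
    rw [← hq]
    exact Real.sqrt_sq hdpos.le
  set u : E3 := ‖d‖⁻¹ • d with hu
  have hu1 : ‖u‖ = 1 := by
    rw [hu, norm_smul, norm_inv, norm_norm]
    exact inv_mul_cancel₀ hdpos.ne'
  have hu0 : u ≠ 0 := by
    intro h0
    rw [h0, norm_zero] at hu1
    exact zero_ne_one hu1
  have hdu : d = ‖d‖ • u := by
    rw [hu, smul_smul, mul_inv_cancel₀ hdpos.ne', one_smul]
  set c' : E3 := proj u (lift h c) with hc'
  set a' : E3 := proj u (lift h a) with ha'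
  set b' : E3 := proj u (lift h b) with hb'
  have hapos : 0 < ‖a‖ := norm_pos_iff.mpr ha
  have hgram : gram a' b' = (h * ‖a‖ ^ 2 / ‖d‖) ^ 2 := by
    rw [ha', hb', gram_proj u _ _ hu0, hu1, hu, triple_smul_right, triple_lift]
    have := cross_sq a b hba hab
    have hd0 : ‖d‖ ≠ 0 := hdpos.ne'
    field_simp
    rw [this]
    ring
  have hval : 0 < h * ‖a‖ ^ 2 / ‖d‖ := by positivity
  have hpos : 0 < gram a' b' := by
    rw [hgram]
    positivity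
  have hsqrt : Real.sqrt (gram a' b') = h * ‖a‖ ^ 2 / ‖d‖ := by
    rw [hgram]
    exact Real.sqrt_sq hval.le
  obtain ⟨B, hBb, hBo, hBsub, hBarea⟩ :=
    Crest.Agent.Helper4.R211.open_pgram_base u c' a' b' hu1 (inner_proj_self u _ hu0)
      (inner_proj_self u _ hu0) (inner_proj_self u _ hu0) hpos η hη
  have hBperp : ∀ y ∈ B, inner ℝ y u = 0 := by
    obtain ⟨O, _, hBO⟩ := hBo
    intro y hy
    rw [hBO] at hy
    exact hy.2
  refine ⟨u, B, hu1, hBb, hBo, ?_, ?_⟩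
  · intro x s t hs ht
    rw [mem_cylinder_iff u hu0 B hBperp]
    apply hBsub
    refine ⟨s, hs, t, ht, ?_⟩
    have e1 : lift h c + s • lift h a + t • lift h b + x • d
        = (lift h c + s • lift h a + t • lift h b) + (x * ‖d‖) • u := by
      rw [mul_smul, ← hdu]
    rw [e1, proj_add_smul u _ _ hu0]
    have e2 : proj u (lift h c + s • lift h a + t • lift h b)
        = projL u (lift h c + s • lift h a + t • lift h b) := rfl
    rw [e2, map_add, map_add, map_smul, map_smul]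
    rfl
  · have hle : μHE[2] B ≤ ENNReal.ofReal ((1 + η) * (h * ‖a‖ ^ 2 / ‖d‖)) := by
      rw [← hsqrt]
      exact hBarea
    have h0 : 0 ≤ (1 + η) * (h * ‖a‖ ^ 2 / ‖d‖) := by positivity
    have := ENNReal.toReal_le_of_le_ofReal h0 hle
    rw [hdsqrt]
    calc (μHE[2] B).toReal ≤ (1 + η) * (h * ‖a‖ ^ 2 / ‖d‖) := this
      _ = (1 + η) * (h * (‖a‖ ^ 2 / ‖d‖)) := by ring

/-- S0329 from S0326. -/
theorem s0329_of (H : S0326Stmt)
    (h M : ℝ) (hh : 0 < h) (hM : 0 < M) (D : Set (EuclideanSpace ℝ (Fin 2))) (hD : IsCompact D)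
    (_hbd : volume (frontier D) = 0)
    (V : EuclideanSpace ℝ (Fin 2) → EuclideanSpace ℝ (Fin 2)) (U : Set (EuclideanSpace ℝ (Fin 2)))
    (hU : IsOpen U) (hDU : D ⊆ U) (hV : ContDiffOn ℝ 1 V U)
    (htr : ∀ p ∈ D, LinearMap.trace ℝ _ (fderiv ℝ V p).toLinearMap = 0)
    (hdet : ∀ p ∈ D, -(M ^ 2)⁻¹ < LinearMap.det (fderiv ℝ V p).toLinearMap ∧
      LinearMap.det (fderiv ℝ V p).toLinearMap < 0)
    (ε : ℝ) (hε : 0 < ε) :
    ∃ (k : ℕ) (u : Fin k → EuclideanSpace ℝ (Fin 3)) (B : Fin k → Set (EuclideanSpace ℝ (Fin 3))),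
      (∀ i, ‖u i‖ = 1) ∧
      (∀ i, Bornology.IsBounded (B i) ∧ ∃ O : Set (EuclideanSpace ℝ (Fin 3)), IsOpen O ∧
        B i = O ∩ {x | inner ℝ x (u i) = 0}) ∧
      {z : EuclideanSpace ℝ (Fin 3) | ∃ p ∈ D, ∃ x : ℝ, abs x ≤ M ∧
          z = !₂[x, p 0 + x * V p 0, h * (p 1 + x * V p 1)]} ⊆
        ⋃ i, {z : EuclideanSpace ℝ (Fin 3) | ∃ y ∈ B i, ∃ τ : ℝ, z = y + τ • u i} ∧
      ∑ i, (μHE[2] (B i)).toReal ≤
        h * (∫ p in D, 1 / Real.sqrt (1 + (V p 0) ^ 2 + h ^ 2 * (V p 1) ^ 2)) + ε := by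
  set I : ℝ := ∫ p in D, 1 / Real.sqrt (1 + (V p 0) ^ 2 + h ^ 2 * (V p 1) ^ 2) with hI
  have hI0 : 0 ≤ I := by
    apply MeasureTheory.integral_nonneg
    intro p
    positivity
  obtain ⟨k, c, a, b, g, hab, hcov, hsum⟩ := H D hD V U hU hDU hV M h hM hh htr
    (fun p hp => ⟨(hdet p hp).1, (hdet p hp).2.le⟩) (ε / (2 * h)) (by positivity)
  set η : ℝ := ε / (2 * (h * I + ε)) with hη
  have hden : 0 < h * I + ε := by positivity
  have hη0 : 0 < η := by positivity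
  have key : ∀ i : Fin k, ∃ (u : E3) (B : Set E3), ‖u‖ = 1 ∧ Bornology.IsBounded B ∧
      (∃ O : Set E3, IsOpen O ∧ B = O ∩ {x | inner ℝ x u = 0}) ∧
      (∀ (x s t : ℝ), s ∈ Set.Icc (0 : ℝ) 1 → t ∈ Set.Icc (0 : ℝ) 1 →
        ∃ y ∈ B, ∃ τ : ℝ,
          lift h (c i) + s • lift h (a i) + t • lift h (b i) + x • axis h (g i) = y + τ • u) ∧
      (μHE[2] B).toReal ≤
        (1 + η) * (h * (‖a i‖ ^ 2 / Real.sqrt (1 + (g i 0) ^ 2 + h ^ 2 * (g i 1) ^ 2))) :=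
    fun i => cyl_data h hh (c i) (a i) (b i) (g i) (hab i).1 (hab i).2.1 (hab i).2.2 η hη0
  choose u B hu hBb hBo hBcov hBarea using key
  refine ⟨k, u, B, hu, fun i => ⟨hBb i, hBo i⟩, ?_, ?_⟩
  · rintro z ⟨p, hp, x, hx, rfl⟩
    have hz : ((x, p + x • V p) : ℝ × E2) ∈
        {z : ℝ × E2 | ∃ p ∈ D, abs z.1 ≤ M ∧ z.2 = p + z.1 • V p} := ⟨p, hp, hx, rfl⟩
    obtain ⟨i, s, hs, t, ht, hst⟩ := Set.mem_iUnion.mp (hcov hz)
    refine Set.mem_iUnion.mpr ⟨i, ?_⟩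
    have hpt := point_eq h x s t p (V p) (c i) (a i) (b i) (g i) hst
    show ∃ y ∈ B i, ∃ τ : ℝ, (!₂[x, p 0 + x * V p 0, h * (p 1 + x * V p 1)] : E3) = y + τ • u i
    rw [hpt]
    exact hBcov i x s t hs ht
  · have hS : ∑ i, ‖a i‖ ^ 2 / Real.sqrt (1 + (g i 0) ^ 2 + h ^ 2 * (g i 1) ^ 2)
        ≤ I + ε / (2 * h) := hsum
    have h1 : ∑ i, (μHE[2] (B i)).toReal ≤
        ∑ i, (1 + η) * (h * (‖a i‖ ^ 2 / Real.sqrt (1 + (g i 0) ^ 2 + h ^ 2 * (g i 1) ^ 2))) :=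
      Finset.sum_le_sum fun i _ => hBarea i
    have h2 : ∑ i, (1 + η) * (h * (‖a i‖ ^ 2 / Real.sqrt (1 + (g i 0) ^ 2 + h ^ 2 * (g i 1) ^ 2)))
        = (1 + η) * (h * ∑ i, ‖a i‖ ^ 2 / Real.sqrt (1 + (g i 0) ^ 2 + h ^ 2 * (g i 1) ^ 2)) := by
      rw [Finset.mul_sum, Finset.mul_sum]
    have h3 : (1 + η) * (h * ∑ i, ‖a i‖ ^ 2 / Real.sqrt (1 + (g i 0) ^ 2 + h ^ 2 * (g i 1) ^ 2))
        ≤ (1 + η) * (h * (I + ε / (2 * h))) := by
      have : 0 ≤ 1 + η := by positivity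
      exact mul_le_mul_of_nonneg_left (mul_le_mul_of_nonneg_left hS hh.le) this
    have h4 : h * (I + ε / (2 * h)) = h * I + ε / 2 := by
      field_simp
    have h5 : η * (h * I + ε) = ε / 2 := by
      rw [hη]
      field_simp
    have h6 : (1 + η) * (h * I + ε / 2) ≤ h * I + ε := by
      have : η * (h * I + ε / 2) ≤ η * (h * I + ε) :=
        mul_le_mul_of_nonneg_left (by linarith) hη0.le
      nlinarith
    calc ∑ i, (μHE[2] (B i)).toReal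
        ≤ (1 + η) * (h * (I + ε / (2 * h))) := by rw [h2] at h1; exact h1.trans h3
      _ = (1 + η) * (h * I + ε / 2) := by rw [h4]
      _ ≤ h * I + ε := h6

end Crest.Agent.Helper5.R211
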