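import Mathlib
import Crest.Agent.Helper7.S0423Defs

/-!
Package C of the team proof of S0423 (helper5): the chord comparison.

Main result: `tau_le_Jw_of`: for a log-concave survival kernel `K` (class `IsSurv`) with `K < 1`
everywhere and mean `0`, `tau ≤ Jw K`, assuming the three "needle" facts of package D
(as explicit hypotheses; the wrapper with package D plugged in is in `S0423ChordFinal.lean`).
-/

set_option autoImplicit false

namespace Crest.Agent.Helper5

open MeasureTheory Set Real Crest.Agent.Helper7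

/-! ### The function `x e^{-x}` -/

lemma mul_exp_neg_le_of_le_one {x y : ℝ} (hx : 0 ≤ x) (hxy : x ≤ y) (hy : y ≤ 1) :
    x * exp (-x) ≤ y * exp (-y) := by
  -- x e^{y-x} ≤ y
  have h1 : exp (-x) = exp (-y) * exp (y - x) := by
    rw [← exp_add]; congr 1; ring
  rw [h1]
  have hpos : 0 < exp (-y) := exp_pos _
  have key : x * exp (y - x) ≤ y := by
    by_cases hd : y - x < 1
    · have h2 : exp (y - x) ≤ 1 / (1 - (y - x)) := by
        have := Real.exp_bound_div_one_sub_of_interval' (x := y - x)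
        by_cases h0 : 0 < y - x
        · exact (this h0 hd).le
        · have : y - x = 0 := by linarith
          rw [this]; simp
      have h3 : 0 < 1 - (y - x) := by linarith
      calc x * exp (y - x) ≤ x * (1 / (1 - (y - x))) := by gcongr
        _ = x / (1 - (y - x)) := by ring
        _ ≤ y := by
          rw [div_le_iff₀ h3]; nlinarith
    · have hx0 : x = 0 := by linarith
      rw [hx0]; simp; linarith
  calc x * (exp (-y) * exp (y - x)) = exp (-y) * (x * exp (y - x)) := by ring
    _ ≤ exp (-y) * y := by gcongr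
    _ = y * exp (-y) := by ring

lemma mul_exp_neg_le_of_one_le {x y : ℝ} (hx : 1 ≤ x) (hxy : x ≤ y) :
    y * exp (-y) ≤ x * exp (-x) := by
  have h1 : exp (-x) = exp (-y) * exp (y - x) := by
    rw [← exp_add]; congr 1; ring
  rw [h1]
  have hpos : 0 < exp (-y) := exp_pos _
  have h2 : 1 + (y - x) ≤ exp (y - x) := by
    have := Real.add_one_le_exp (y - x); linarith
  have key : y ≤ x * exp (y - x) := by
    calc y ≤ x * (1 + (y - x)) := by nlinarith
      _ ≤ x * exp (y - x) := by gcongr
  calc y * exp (-y) = exp (-y) * y := by ring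
    _ ≤ exp (-y) * (x * exp (y - x)) := by gcongr
    _ = x * (exp (-y) * exp (y - x)) := by ring

/-! ### The level parametrisation -/

/-- smaller level point of `y e^{-y}`. -/
noncomputable def y1 (r : ℝ) : ℝ := log r / (r - 1)
/-- larger level point of `y e^{-y}`. -/
noncomputable def y2 (r : ℝ) : ℝ := y1 r + log r
/-- the common level. -/
noncomputable def th (r : ℝ) : ℝ := y1 r * exp (-(y1 r))

lemma y1_pos {r : ℝ} (hr : 1 < r) : 0 < y1 r := by
  unfold y1
  exact div_pos (Real.log_pos hr) (by linarith)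

lemma y1_le_one {r : ℝ} (hr : 1 < r) : y1 r ≤ 1 := by
  unfold y1
  rw [div_le_one (by linarith)]
  have := Real.log_le_sub_one_of_pos (show (0:ℝ) < r by linarith)
  linarith

lemma y2_eq {r : ℝ} (hr : 1 < r) : y2 r = r * y1 r := by
  unfold y2 y1
  have : r - 1 ≠ 0 := by linarith
  field_simp
  ring

lemma one_le_y2 {r : ℝ} (hr : 1 < r) : 1 ≤ y2 r := by
  rw [y2_eq hr]
  unfold y1
  have h0 : (0:ℝ) < r := by linarith
  have h1 : 0 < r - 1 := by linarith
  rw [← mul_div_assoc, le_div_iff₀ h1]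
  have := Real.one_sub_inv_le_log_of_pos h0
  have h2 : r * (1 - r⁻¹) = r - 1 := by field_simp
  nlinarith

lemma y1_lt_y2 {r : ℝ} (hr : 1 < r) : y1 r < y2 r := by
  unfold y2
  have := Real.log_pos hr
  linarith

lemma th_eq {r : ℝ} (hr : 1 < r) : th r = y2 r * exp (-(y2 r)) := by
  have h0 : (0:ℝ) < r := by linarith
  unfold th
  have : exp (-(y2 r)) = exp (-(y1 r)) * r⁻¹ := by
    unfold y2
    rw [neg_add, exp_add, exp_neg (log r), exp_log h0]
  rw [this, y2_eq hr]
  field_simp

lemma th_nonneg {r : ℝ} (hr : 1 < r) : 0 ≤ th r := by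
  unfold th
  exact mul_nonneg (y1_pos hr).le (exp_pos _).le

lemma th_le_y1 {r : ℝ} (hr : 1 < r) : th r ≤ y1 r := by
  unfold th
  have h1 : exp (-(y1 r)) ≤ 1 := by
    rw [exp_le_one_iff]; linarith [y1_pos hr]
  calc y1 r * exp (-(y1 r)) ≤ y1 r * 1 := by
        exact mul_le_mul_of_nonneg_left h1 (y1_pos hr).le
    _ = y1 r := by ring

lemma gw_nonneg (y : ℝ) : 0 ≤ gw y := by
  unfold gw
  split_ifs with h
  · exact le_rfl
  · have h := not_le.mp h
    exact mul_nonneg h.le (exp_pos _).le

lemma gw_le_one (y : ℝ) : gw y ≤ 1 := by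
  unfold gw
  split_ifs with h
  · exact zero_le_one
  · have h := not_le.mp h
    have h1 : y + 1 ≤ exp y := Real.add_one_le_exp y
    have h2 : exp (-y) = (exp y)⁻¹ := exp_neg y
    rw [h2, ← div_eq_mul_inv, div_le_one (exp_pos y)]
    linarith

lemma gw_ge_th {r : ℝ} (hr : 1 < r) {y : ℝ} (h1 : y1 r ≤ y) (h2 : y ≤ y2 r) : th r ≤ gw y := by
  have hy : 0 < y := lt_of_lt_of_le (y1_pos hr) h1
  have hg : gw y = y * exp (-y) := by
    unfold gw; rw [if_neg (by linarith)]
  rw [hg]
  rcases le_total y 1 with hy1 | hy1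
  · exact mul_exp_neg_le_of_le_one (y1_pos hr).le h1 hy1
  · rw [th_eq hr]
    exact mul_exp_neg_le_of_one_le hy1 h2

lemma gw_le_th {r : ℝ} (hr : 1 < r) {y : ℝ} (h : y < y1 r ∨ y2 r < y) : gw y ≤ th r := by
  rcases h with h | h
  · by_cases hy : y ≤ 0
    · unfold gw; rw [if_pos hy]; exact th_nonneg hr
    · have hy := not_le.mp hy
      have hg : gw y = y * exp (-y) := by
        unfold gw; rw [if_neg (by linarith)]
      rw [hg]
      exact mul_exp_neg_le_of_le_one hy.le h.le (y1_le_one hr)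
  · have hy : 0 < y := by linarith [one_le_y2 hr]
    have hg : gw y = y * exp (-y) := by
      unfold gw; rw [if_neg (by linarith)]
    rw [hg, th_eq hr]
    exact mul_exp_neg_le_of_one_le (one_le_y2 hr) h.le

/-! ### Integrability of the weight -/

lemma integrableOn_mul_exp_neg : IntegrableOn (fun y : ℝ => y * exp (-y)) (Ioi 0) := by
  have h := Real.GammaIntegral_convergent (s := 2) (by norm_num)
  refine h.congr_fun (fun x hx => ?_) measurableSet_Ioi
  have h21 : (2:ℝ) - 1 = 1 := by norm_num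
  simp only [h21, Real.rpow_one]
  ring

lemma gw_eq_indicator : gw = indicator (Ioi (0:ℝ)) (fun y : ℝ => y * exp (-y)) := by
  funext y
  unfold gw
  by_cases h : y ≤ 0
  · rw [if_pos h, indicator_of_notMem]
    simpa using h
  · rw [if_neg h, indicator_of_mem]
    simpa using h

lemma integrable_gw : Integrable gw := by
  rw [gw_eq_indicator]
  exact integrableOn_mul_exp_neg.integrable_indicator measurableSet_Ioi

lemma integrable_gw_shift : Integrable (fun t : ℝ => gw (t + 4 / 3)) :=
  integrable_gw.comp_add_right (4 / 3)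

lemma integrable_gw_mul {K : ℝ → ℝ} (hc : Continuous K) (h0 : ∀ t, 0 ≤ K t) (h1 : ∀ t, K t ≤ 1) :
    Integrable (fun t : ℝ => gw (t + 4 / 3) * K t) := by
  refine integrable_gw_shift.mul_bdd (c := 1) hc.aestronglyMeasurable (ae_of_all _ fun t => ?_)
  rw [Real.norm_eq_abs, abs_of_nonneg (h0 t)]
  exact h1 t

/-! ### Elementary facts on needles -/

lemma needle_pos (a b t : ℝ) : 0 < needle a b t := by
  unfold needle
  exact lt_min one_pos (exp_pos _)

lemma needle_le_one (a b t : ℝ) : needle a b t ≤ 1 := by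
  unfold needle
  exact min_le_left _ _

lemma continuous_needle (a b : ℝ) : Continuous (needle a b) := by
  unfold needle
  exact continuous_const.min (Real.continuous_exp.comp (by fun_prop))

/-! ### Chords of concave functions -/

lemma chord_le_of_mem {f : ℝ → ℝ} (hf : ConcaveOn ℝ univ f) {s1 s2 t : ℝ} (h12 : s1 < s2)
    (h1 : s1 ≤ t) (h2 : t ≤ s2) :
    f s1 + (f s2 - f s1) / (s2 - s1) * (t - s1) ≤ f t := by
  have hd : 0 < s2 - s1 := by linarith
  have ha : 0 ≤ (s2 - t) / (s2 - s1) := div_nonneg (by linarith) hd.le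
  have hb : 0 ≤ (t - s1) / (s2 - s1) := div_nonneg (by linarith) hd.le
  have hab : (s2 - t) / (s2 - s1) + (t - s1) / (s2 - s1) = 1 := by field_simp; ring
  have h := hf.2 (mem_univ s1) (mem_univ s2) ha hb hab
  have e1 : ((s2 - t) / (s2 - s1)) • s1 + ((t - s1) / (s2 - s1)) • s2 = t := by
    simp only [smul_eq_mul]; field_simp; ring
  have e2 : ((s2 - t) / (s2 - s1)) • f s1 + ((t - s1) / (s2 - s1)) • f s2
      = f s1 + (f s2 - f s1) / (s2 - s1) * (t - s1) := by
    simp only [smul_eq_mul]; field_simp; ring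
  rw [e1, e2] at h
  exact h

lemma le_chord_of_le_left {f : ℝ → ℝ} (hf : ConcaveOn ℝ univ f) {s1 s2 t : ℝ} (h12 : s1 < s2)
    (ht : t ≤ s1) :
    f t ≤ f s1 + (f s2 - f s1) / (s2 - s1) * (t - s1) := by
  rcases eq_or_lt_of_le ht with rfl | hlt
  · simp
  have h := chord_le_of_mem hf (show t < s2 by linarith) hlt.le h12.le
  have hq : 0 < s2 - s1 := by linarith
  have hp : 0 < s1 - t := by linarith
  have hpq : 0 < s2 - t := by linarith
  rw [div_mul_eq_mul_div, ← sub_le_iff_le_add', le_div_iff₀ hq]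
  rw [div_mul_eq_mul_div, ← le_sub_iff_add_le', div_le_iff₀ hpq] at h
  nlinarith

lemma le_chord_of_le_right {f : ℝ → ℝ} (hf : ConcaveOn ℝ univ f) {s1 s2 t : ℝ} (h12 : s1 < s2)
    (ht : s2 ≤ t) :
    f t ≤ f s1 + (f s2 - f s1) / (s2 - s1) * (t - s1) := by
  rcases eq_or_lt_of_le ht with rfl | hlt
  · have hq : s2 - s1 ≠ 0 := by linarith
    field_simp
    ring_nf
    exact le_rfl
  have h := chord_le_of_mem hf (show s1 < t by linarith) h12.le hlt.le
  have hq : 0 < s2 - s1 := by linarith
  have hp : 0 < t - s2 := by linarith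
  have hpq : 0 < t - s1 := by linarith
  rw [div_mul_eq_mul_div, ← sub_le_iff_le_add', le_div_iff₀ hq]
  rw [div_mul_eq_mul_div, ← le_sub_iff_add_le', div_le_iff₀ hpq] at h
  nlinarith

/-! ### Strict monotonicity of kernels below one -/

lemma log_K_nonpos {K : ℝ → ℝ} (hK : IsSurv K) (t : ℝ) : log (K t) ≤ 0 :=
  Real.log_nonpos (hK.pos t).le (hK.le_one t)

lemma strictAnti_of_isSurv {K : ℝ → ℝ} (hK : IsSurv K) (hlt : ∀ t, K t < 1) : StrictAnti K := by
  intro u v huv
  by_contra hcon
  have hle : K u ≤ K v := not_lt.mp hcon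
  have heq : K u = K v := le_antisymm hle (hK.anti huv.le)
  -- K is constant on (-∞, u]
  have hconst : ∀ t, t ≤ u → K t = K u := by
    intro t ht
    refine le_antisymm ?_ (hK.anti ht)
    have h := le_chord_of_le_left hK.logconc huv ht
    simp only [heq, sub_self, zero_div, zero_mul, add_zero] at h
    rw [← heq] at h
    exact (Real.log_le_log_iff (hK.pos t) (hK.pos u)).mp h
  -- contradiction with integrability
  set w : ℝ := min u (-1) with hw
  have hint : IntegrableOn (fun t => K t - ind0 t) (Iic w) := hK.integrable.integrableOn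
  have hcongr : EqOn (fun t => K t - ind0 t) (fun _ => K u - 1) (Iic w) := by
    intro t ht
    have ht' : t ≤ w := ht
    have h1 : t ≤ u := le_trans ht' (min_le_left _ _)
    have h2 : t < 0 := lt_of_le_of_lt (le_trans ht' (min_le_right _ _)) (by norm_num)
    simp only [ind0, if_pos h2, hconst t h1]
  have hint2 : IntegrableOn (fun _ : ℝ => K u - 1) (Iic w) :=
    hint.congr_fun hcongr measurableSet_Iic
  rw [integrableOn_const_iff] at hint2
  rcases hint2 with h | h
  · have : K u - 1 = 0 := by simpa using h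
    have := hlt u
    linarith
  · rw [Real.volume_Iic] at h
    exact lt_irrefl _ h

/-! ### The chord needle -/

/-- scale of the needle through `(s1, K s1)` and `(s2, K s2)`. -/
noncomputable def chA (K : ℝ → ℝ) (s1 s2 : ℝ) : ℝ := (s2 - s1) / (log (K s1) - log (K s2))
/-- shift of the needle through `(s1, K s1)` and `(s2, K s2)`. -/
noncomputable def chB (K : ℝ → ℝ) (s1 s2 : ℝ) : ℝ := -s1 - chA K s1 s2 * log (K s1)

lemma log_K_lt {K : ℝ → ℝ} (hK : IsSurv K) (hlt : ∀ t, K t < 1) {s1 s2 : ℝ} (h12 : s1 < s2) :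
    log (K s2) < log (K s1) :=
  Real.log_lt_log (hK.pos s2) (strictAnti_of_isSurv hK hlt h12)

lemma chA_pos {K : ℝ → ℝ} (hK : IsSurv K) (hlt : ∀ t, K t < 1) {s1 s2 : ℝ} (h12 : s1 < s2) :
    0 < chA K s1 s2 := by
  unfold chA
  exact div_pos (by linarith) (by linarith [log_K_lt hK hlt h12])

lemma chord_exponent {K : ℝ → ℝ} (hK : IsSurv K) (hlt : ∀ t, K t < 1) {s1 s2 : ℝ} (h12 : s1 < s2)
    (t : ℝ) :
    -(t + chB K s1 s2) / chA K s1 s2
      = log (K s1) + (log (K s2) - log (K s1)) / (s2 - s1) * (t - s1) := by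
  have hl := log_K_lt hK hlt h12
  have h1 : log (K s1) - log (K s2) ≠ 0 := by linarith
  have h2 : s2 - s1 ≠ 0 := by linarith
  unfold chB chA
  field_simp
  ring

lemma needle_le_K {K : ℝ → ℝ} (hK : IsSurv K) (hlt : ∀ t, K t < 1) {s1 s2 t : ℝ} (h12 : s1 < s2)
    (h1 : s1 ≤ t) (h2 : t ≤ s2) :
    needle (chA K s1 s2) (chB K s1 s2) t ≤ K t := by
  unfold needle
  rw [chord_exponent hK hlt h12]
  have h := chord_le_of_mem hK.logconc h12 h1 h2
  calc min 1 (exp (log (K s1) + (log (K s2) - log (K s1)) / (s2 - s1) * (t - s1)))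
      ≤ exp (log (K s1) + (log (K s2) - log (K s1)) / (s2 - s1) * (t - s1)) := min_le_right _ _
    _ ≤ exp (log (K t)) := Real.exp_le_exp.mpr h
    _ = K t := Real.exp_log (hK.pos t)

lemma K_le_needle {K : ℝ → ℝ} (hK : IsSurv K) (hlt : ∀ t, K t < 1) {s1 s2 t : ℝ} (h12 : s1 < s2)
    (h : t ≤ s1 ∨ s2 ≤ t) :
    K t ≤ needle (chA K s1 s2) (chB K s1 s2) t := by
  unfold needle
  rw [chord_exponent hK hlt h12]
  have h' : log (K t) ≤ log (K s1) + (log (K s2) - log (K s1)) / (s2 - s1) * (t - s1) := by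
    rcases h with h | h
    · exact le_chord_of_le_left hK.logconc h12 h
    · exact le_chord_of_le_right hK.logconc h12 h
  refine le_min (hK.le_one t) ?_
  calc K t = exp (log (K t)) := (Real.exp_log (hK.pos t)).symm
    _ ≤ _ := Real.exp_le_exp.mpr h'

/-! ### The comparison inequality for one chord -/

/-- The three needle facts of package D, as a hypothesis bundle. -/
structure NeedleFacts : Prop where
  integrable : ∀ a b : ℝ, 0 < a → Integrable (fun t => needle a b t - ind0 t)
  smean : ∀ a b : ℝ, 0 < a → smean (needle a b) = a - b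
  Jw_ge : ∀ a b : ℝ, 0 < a → tau - Real.exp (-1) * max 0 (b - a) ≤ Jw (needle a b)

lemma Jw_sub_ge {K : ℝ → ℝ} (hD : NeedleFacts) (hK : IsSurv K) (hlt : ∀ t, K t < 1)
    {r : ℝ} (hr : 1 < r) :
    th r * (smean K - smean (needle (chA K (y1 r - 4 / 3) (y2 r - 4 / 3))
        (chB K (y1 r - 4 / 3) (y2 r - 4 / 3))))
      ≤ Jw K - Jw (needle (chA K (y1 r - 4 / 3) (y2 r - 4 / 3))
        (chB K (y1 r - 4 / 3) (y2 r - 4 / 3))) := by
  set s1 := y1 r - 4 / 3 with hs1
  set s2 := y2 r - 4 / 3 with hs2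
  have h12 : s1 < s2 := by
    have := y1_lt_y2 hr
    simp only [hs1, hs2]; linarith
  set a := chA K s1 s2 with ha
  set b := chB K s1 s2 with hb
  have hapos : 0 < a := chA_pos hK hlt h12
  -- pointwise sign
  have hpt : ∀ t, 0 ≤ (gw (t + 4 / 3) - th r) * (K t - needle a b t) := by
    intro t
    by_cases hmem : s1 ≤ t ∧ t ≤ s2
    · have hg : th r ≤ gw (t + 4 / 3) :=
        gw_ge_th hr (by simp only [hs1] at hmem; linarith [hmem.1])
          (by simp only [hs2] at hmem; linarith [hmem.2])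
      have hk : needle a b t ≤ K t := needle_le_K hK hlt h12 hmem.1 hmem.2
      exact mul_nonneg (by linarith) (by linarith)
    · have hout : t < s1 ∨ s2 < t := by
        by_contra hc
        have hc1 := not_or.mp hc
        exact hmem ⟨not_lt.mp hc1.1, not_lt.mp hc1.2⟩
      have hg : gw (t + 4 / 3) ≤ th r := by
        apply gw_le_th hr
        rcases hout with h | h
        · left; simp only [hs1] at h; linarith
        · right; simp only [hs2] at h; linarith
      have hk : K t ≤ needle a b t :=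
        K_le_needle hK hlt h12 (hout.imp le_of_lt le_of_lt)
      exact mul_nonneg_of_nonpos_of_nonpos (by linarith) (by linarith)
  -- integrals
  have i1 : Integrable (fun t : ℝ => gw (t + 4 / 3) * K t) :=
    integrable_gw_mul hK.cont (fun t => (hK.pos t).le) hK.le_one
  have i2 : Integrable (fun t : ℝ => gw (t + 4 / 3) * needle a b t) :=
    integrable_gw_mul (continuous_needle a b) (fun t => (needle_pos a b t).le) (needle_le_one a b)
  have i3 : Integrable (fun t : ℝ => K t - ind0 t) := hK.integrable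
  have i4 : Integrable (fun t : ℝ => needle a b t - ind0 t) := hD.integrable a b hapos
  have hexp : ∀ t, (gw (t + 4 / 3) - th r) * (K t - needle a b t)
      = (gw (t + 4 / 3) * K t - gw (t + 4 / 3) * needle a b t)
        - th r * ((K t - ind0 t) - (needle a b t - ind0 t)) := by
    intro t; ring
  have hint : 0 ≤ ∫ t, (gw (t + 4 / 3) - th r) * (K t - needle a b t) :=
    integral_nonneg hpt
  have hcalc : ∫ t, (gw (t + 4 / 3) - th r) * (K t - needle a b t)
      = (Jw K - Jw (needle a b)) - th r * (smean K - smean (needle a b)) := by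
    simp_rw [hexp]
    have e1 : ∫ t, ((gw (t + 4 / 3) * K t - gw (t + 4 / 3) * needle a b t)
          - th r * ((K t - ind0 t) - (needle a b t - ind0 t)))
        = (∫ t, (gw (t + 4 / 3) * K t - gw (t + 4 / 3) * needle a b t))
          - ∫ t, th r * ((K t - ind0 t) - (needle a b t - ind0 t)) :=
      integral_sub (i1.sub i2) ((i3.sub i4).const_mul _)
    have e2 : ∫ t, (gw (t + 4 / 3) * K t - gw (t + 4 / 3) * needle a b t)
        = Jw K - Jw (needle a b) := integral_sub i1 i2
    have e3 : ∫ t, th r * ((K t - ind0 t) - (needle a b t - ind0 t))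
        = th r * (smean K - smean (needle a b)) := by
      rw [integral_const_mul]
      congr 1
      exact integral_sub i3 i4
    rw [e1, e2, e3]
  rw [hcalc] at hint
  linarith

/-- lower bound on the mean defect: `smean needle - smean K ≥ -(s2 - s1)`. -/
lemma smean_needle_sub_ge {K : ℝ → ℝ} (hD : NeedleFacts) (hK : IsSurv K) (hlt : ∀ t, K t < 1)
    {s1 s2 : ℝ} (h12 : s1 < s2) :
    -(s2 - s1) ≤ smean (needle (chA K s1 s2) (chB K s1 s2)) - smean K := by
  set a := chA K s1 s2 with ha
  set b := chB K s1 s2 with hb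
  have hapos : 0 < a := chA_pos hK hlt h12
  have i3 : Integrable (fun t : ℝ => K t - ind0 t) := hK.integrable
  have i4 : Integrable (fun t : ℝ => needle a b t - ind0 t) := hD.integrable a b hapos
  have i5 : Integrable (indicator (Icc s1 s2) (fun _ : ℝ => (-1 : ℝ))) :=
    (integrableOn_const (by simp) (by simp)).integrable_indicator measurableSet_Icc
  have hle : (indicator (Icc s1 s2) (fun _ : ℝ => (-1 : ℝ)))
      ≤ fun t => (needle a b t - ind0 t) - (K t - ind0 t) := by
    intro t
    by_cases hmem : t ∈ Icc s1 s2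
    · rw [indicator_of_mem hmem]
      have h1 := needle_pos a b t
      have h2 := hK.le_one t
      simp only
      linarith
    · rw [indicator_of_notMem hmem]
      have hout : t ≤ s1 ∨ s2 ≤ t := by
        by_contra hc
        have hc1 := not_or.mp hc
        exact hmem ⟨(not_le.mp hc1.1).le, (not_le.mp hc1.2).le⟩
      have := K_le_needle hK hlt h12 hout
      simp only
      linarith
  have hmono : ∫ t, indicator (Icc s1 s2) (fun _ : ℝ => (-1 : ℝ)) t
      ≤ ∫ t, ((needle a b t - ind0 t) - (K t - ind0 t)) := integral_mono i5 (i4.sub i3) hle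
  have e4 : ∫ t, ((needle a b t - ind0 t) - (K t - ind0 t)) = smean (needle a b) - smean K :=
    integral_sub i4 i3
  rw [integral_indicator_const _ measurableSet_Icc, e4, Real.volume_real_Icc,
    max_eq_left (by linarith)] at hmono
  simp only [smul_eq_mul, mul_neg, mul_one] at hmono
  exact hmono

/-! ### The mean of the chord needle as a function of the level parameter -/

/-- the mean `a - b` of the chord needle at level parameter `r`. -/
noncomputable def mf (K : ℝ → ℝ) (r : ℝ) : ℝ :=
  chA K (y1 r - 4 / 3) (y2 r - 4 / 3) - chB K (y1 r - 4 / 3) (y2 r - 4 / 3)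

lemma s12_lt {r : ℝ} (hr : 1 < r) : y1 r - 4 / 3 < y2 r - 4 / 3 := by
  have := y1_lt_y2 hr
  linarith

lemma star_ineq {K : ℝ → ℝ} (hD : NeedleFacts) (hK : IsSurv K) (hlt : ∀ t, K t < 1)
    (hmean : smean K = 0) {r : ℝ} (hr : 1 < r) :
    tau - Real.exp (-1) * max 0 (-(mf K r)) - th r * mf K r ≤ Jw K := by
  have h1 := Jw_sub_ge hD hK hlt hr
  have hapos := chA_pos hK hlt (s12_lt hr)
  have h2 := hD.smean _ (chB K (y1 r - 4 / 3) (y2 r - 4 / 3)) hapos
  have h3 := hD.Jw_ge _ (chB K (y1 r - 4 / 3) (y2 r - 4 / 3)) hapos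
  rw [hmean, h2] at h1
  have e : chB K (y1 r - 4 / 3) (y2 r - 4 / 3) - chA K (y1 r - 4 / 3) (y2 r - 4 / 3)
      = -(mf K r) := by
    unfold mf; ring
  rw [e] at h3
  have e2 : th r * (0 - (chA K (y1 r - 4 / 3) (y2 r - 4 / 3) - chB K (y1 r - 4 / 3) (y2 r - 4 / 3)))
      = -(th r * mf K r) := by
    unfold mf; ring
  rw [e2] at h1
  linarith

lemma mf_ge {K : ℝ → ℝ} (hD : NeedleFacts) (hK : IsSurv K) (hlt : ∀ t, K t < 1)
    (hmean : smean K = 0) {r : ℝ} (hr : 1 < r) : -(log r) ≤ mf K r := by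
  have h1 := smean_needle_sub_ge hD hK hlt (s12_lt hr)
  have hapos := chA_pos hK hlt (s12_lt hr)
  have h2 := hD.smean _ (chB K (y1 r - 4 / 3) (y2 r - 4 / 3)) hapos
  rw [hmean, h2] at h1
  have e : y2 r - 4 / 3 - (y1 r - 4 / 3) = log r := by
    unfold y2; ring
  rw [e] at h1
  unfold mf
  linarith

lemma mf_le {K : ℝ → ℝ} (hK : IsSurv K) (hlt : ∀ t, K t < 1) {r : ℝ} (hr : 1 < r) :
    mf K r ≤ chA K (y1 r - 4 / 3) (y2 r - 4 / 3) := by
  have hapos := chA_pos hK hlt (s12_lt hr)
  have hl := log_K_nonpos hK (y1 r - 4 / 3)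
  have hy := y1_le_one hr
  have hprod : chA K (y1 r - 4 / 3) (y2 r - 4 / 3) * log (K (y1 r - 4 / 3)) ≤ 0 :=
    mul_nonpos_of_nonneg_of_nonpos hapos.le hl
  unfold mf chB
  linarith

lemma chA_le {K : ℝ → ℝ} (hK : IsSurv K) (hlt : ∀ t, K t < 1) {r : ℝ} (hr : 1 < r)
    (h3 : 3 ≤ log r) :
    chA K (y1 r - 4 / 3) (y2 r - 4 / 3) ≤ log r / (log (K (-1 / 3)) - log (K 1)) := by
  have hd0 : 0 < log (K (-1 / 3)) - log (K 1) := by
    linarith [log_K_lt hK hlt (show (-1 / 3 : ℝ) < 1 by norm_num)]
  have hl1 : log (K (-1 / 3)) ≤ log (K (y1 r - 4 / 3)) := by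
    apply Real.log_le_log (hK.pos _)
    apply hK.anti
    linarith [y1_le_one hr]
  have hl2 : log (K (y2 r - 4 / 3)) ≤ log (K 1) := by
    apply Real.log_le_log (hK.pos _)
    apply hK.anti
    have := y1_pos hr
    unfold y2
    linarith
  have e : y2 r - 4 / 3 - (y1 r - 4 / 3) = log r := by
    unfold y2; ring
  unfold chA
  rw [e]
  apply div_le_div_of_nonneg_left (by linarith) hd0
  linarith

lemma continuousOn_y1 : ContinuousOn y1 (Ioi 1) := by
  unfold y1
  apply ContinuousOn.div
  · exact Real.continuousOn_log.mono (fun x hx => by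
      have : (1:ℝ) < x := hx
      simp only [mem_compl_iff, mem_singleton_iff]
      linarith)
  · fun_prop
  · intro x hx
    have : (1:ℝ) < x := hx
    linarith

lemma continuousOn_y2 : ContinuousOn y2 (Ioi 1) := by
  unfold y2
  apply ContinuousOn.add continuousOn_y1
  exact Real.continuousOn_log.mono (fun x hx => by
    have : (1:ℝ) < x := hx
    simp only [mem_compl_iff, mem_singleton_iff]
    linarith)

lemma continuousOn_mf {K : ℝ → ℝ} (hK : IsSurv K) (hlt : ∀ t, K t < 1) :
    ContinuousOn (mf K) (Ioi 1) := by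
  have hs1 : ContinuousOn (fun r => y1 r - 4 / 3) (Ioi 1) := continuousOn_y1.sub continuousOn_const
  have hs2 : ContinuousOn (fun r => y2 r - 4 / 3) (Ioi 1) := continuousOn_y2.sub continuousOn_const
  have hl1 : ContinuousOn (fun r => log (K (y1 r - 4 / 3))) (Ioi 1) :=
    (hK.cont.comp_continuousOn hs1).log (fun x _ => (hK.pos _).ne')
  have hl2 : ContinuousOn (fun r => log (K (y2 r - 4 / 3))) (Ioi 1) :=
    (hK.cont.comp_continuousOn hs2).log (fun x _ => (hK.pos _).ne')
  have hA : ContinuousOn (fun r => chA K (y1 r - 4 / 3) (y2 r - 4 / 3)) (Ioi 1) := by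
    unfold chA
    apply ContinuousOn.div (hs2.sub hs1) (hl1.sub hl2)
    intro x hx
    have := log_K_lt hK hlt (s12_lt (show (1:ℝ) < x from hx))
    show log (K (y1 x - 4 / 3)) - log (K (y2 x - 4 / 3)) ≠ 0
    linarith
  have hB : ContinuousOn (fun r => chB K (y1 r - 4 / 3) (y2 r - 4 / 3)) (Ioi 1) := by
    unfold chB
    exact (hs1.neg).sub (hA.mul hl1)
  exact hA.sub hB

/-! ### The main theorem of package C -/

/-- **Chord comparison theorem.** A log-concave survival kernel `K < 1` of mean `0` has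
`tau ≤ Jw K`, given the needle facts of package D. -/
theorem tau_le_Jw_of (hD : NeedleFacts) {K : ℝ → ℝ} (hK : IsSurv K) (hlt : ∀ t, K t < 1)
    (hmean : smean K = 0) : tau ≤ Jw K := by
  by_contra hcon
  have hδ : 0 < tau - Jw K := by linarith [not_le.mp hcon]
  set δ := tau - Jw K with hδdef
  -- the mean never vanishes
  have hA : ∀ r, 1 < r → mf K r ≠ 0 := by
    intro r hr h0
    have h := star_ineq hD hK hlt hmean hr
    rw [h0] at h
    simp only [neg_zero, max_self, mul_zero, sub_zero] at h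
    linarith
  -- near r = 1 the mean is positive
  set r0 := Real.exp δ with hr0
  have hr0_gt : 1 < r0 := by
    rw [hr0]; exact Real.one_lt_exp_iff.mpr hδ
  have hB : 0 < mf K r0 := by
    by_contra hneg
    have hle : mf K r0 ≤ 0 := not_lt.mp hneg
    have h1 := star_ineq hD hK hlt hmean hr0_gt
    have h2 := mf_ge hD hK hlt hmean hr0_gt
    have hlog : log r0 = δ := by rw [hr0, Real.log_exp]
    rw [hlog] at h2
    have h3 : max 0 (-(mf K r0)) = -(mf K r0) := max_eq_right (by linarith)
    rw [h3] at h1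
    have h4 : 0 ≤ th r0 := th_nonneg hr0_gt
    have h5 : Real.exp (-1) < 1 := by
      rw [Real.exp_lt_one_iff]; norm_num
    have h6 : th r0 * mf K r0 ≤ 0 := mul_nonpos_of_nonneg_of_nonpos h4 hle
    have h7 : Real.exp (-1) * (-(mf K r0)) ≤ Real.exp (-1) * δ :=
      mul_le_mul_of_nonneg_left (by linarith) (Real.exp_pos _).le
    have h8 : Real.exp (-1) * δ < δ := mul_lt_of_lt_one_left hδ h5
    linarith
  -- for large r the mean is negative
  have hd0 : 0 < log (K (-1 / 3)) - log (K 1) := by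
    linarith [log_K_lt hK hlt (show (-1 / 3 : ℝ) < 1 by norm_num)]
  set d0 := log (K (-1 / 3)) - log (K 1) with hd0def
  have htend := Real.tendsto_pow_log_div_mul_add_atTop 1 (-1) 2 one_ne_zero
  have hev1 : ∀ᶠ r : ℝ in Filter.atTop, log r ^ 2 / (1 * r + -1) < δ * d0 :=
    htend.eventually_lt_const (mul_pos hδ hd0)
  have hev2 : ∀ᶠ r : ℝ in Filter.atTop, r0 < r := Filter.eventually_gt_atTop r0
  have hev3 : ∀ᶠ r : ℝ in Filter.atTop, Real.exp 3 ≤ r := Filter.eventually_ge_atTop _
  obtain ⟨r1, h1, h2, h3⟩ := (hev1.and (hev2.and hev3)).exists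
  have hr1 : 1 < r1 := lt_trans hr0_gt h2
  have hlog3 : 3 ≤ log r1 := by
    have := Real.log_le_log (Real.exp_pos 3) h3
    rwa [Real.log_exp] at this
  have hC : mf K r1 < 0 := by
    by_contra hneg
    have hge : 0 ≤ mf K r1 := not_lt.mp hneg
    have hs := star_ineq hD hK hlt hmean hr1
    have hmax : max 0 (-(mf K r1)) = 0 := max_eq_left (by linarith)
    rw [hmax, mul_zero, sub_zero] at hs
    have ha_le := chA_le hK hlt hr1 hlog3
    have hm_le := mf_le hK hlt hr1
    have hth := th_le_y1 hr1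
    have hth0 := th_nonneg hr1
    have hlogpos : 0 < log r1 := by linarith
    have hbound : th r1 * mf K r1 ≤ y1 r1 * (log r1 / d0) := by
      calc th r1 * mf K r1 ≤ th r1 * (log r1 / d0) :=
            mul_le_mul_of_nonneg_left (hm_le.trans ha_le) hth0
        _ ≤ y1 r1 * (log r1 / d0) :=
            mul_le_mul_of_nonneg_right hth (div_nonneg hlogpos.le hd0.le)
    have hr1' : r1 - 1 ≠ 0 := by linarith
    have heq : y1 r1 * (log r1 / d0) = (log r1 ^ 2 / (1 * r1 + -1)) / d0 := by
      have e : (1 * r1 + -1 : ℝ) = r1 - 1 := by ring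
      rw [e]
      unfold y1
      field_simp
    have hlt2 : (log r1 ^ 2 / (1 * r1 + -1)) / d0 < δ := by
      rw [div_lt_iff₀ hd0]; exact h1
    linarith
  -- intermediate value theorem
  have hcont : ContinuousOn (mf K) (Icc r0 r1) :=
    (continuousOn_mf hK hlt).mono (fun x hx => lt_of_lt_of_le hr0_gt hx.1)
  have hmem : (0:ℝ) ∈ Icc (mf K r1) (mf K r0) := ⟨hC.le, hB.le⟩
  obtain ⟨r, hr, hr0'⟩ := intermediate_value_Icc' h2.le hcont hmem
  exact hA r (lt_of_lt_of_le hr0_gt hr.1) hr0'

end Crest.Agent.Helper5
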