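import Crest.Agent.Helper5.S0423Chord
import Crest.Agent.Helper4.S0423NeedleSurv
import Crest.Agent.Helper6.S0423Needle

/-!
Package C of the team proof of S0423, final form: the chord comparison theorem with the needle
facts of package D (helper4, helper6) plugged in.
-/

set_option autoImplicit false

namespace Crest.Agent.Helper5

open Crest.Agent.Helper7

/-- The needle facts of package D. -/
theorem needleFacts : NeedleFacts :=
  ⟨fun a b ha => (Crest.Agent.Helper4.needle_isSurv a b ha).integrable,
    Crest.Agent.Helper4.needle_smean, Crest.Agent.Helper6.needle_Jw_ge⟩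

/-- **Package C.** A log-concave survival kernel `K < 1` of mean `0` has `tau ≤ Jw K`. -/
theorem tau_le_Jw {K : ℝ → ℝ} (hK : IsSurv K) (hlt : ∀ t, K t < 1) (hmean : smean K = 0) :
    tau ≤ Jw K :=
  tau_le_Jw_of needleFacts hK hlt hmean

end Crest.Agent.Helper5
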